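import Crest.Agent.R264.Cx.Cell
import Crest.Agent.R264.Base.Small
import Crest.Agent.R264.Base.Top

/-! Real coordinates on `ℂ^ι`, thin sets, analytic graphs over coordinates, cells. -/

set_option autoImplicit false
set_option linter.unusedSectionVars false
open Set Filter Topology MvPolynomial

namespace Crest.Agent.R264

variable {σ τ ι : Type} [Fintype σ] [Fintype τ] [Fintype ι] [DecidableEq σ] [DecidableEq τ] [DecidableEq ι]
  {𝕜 : Subfield ℝ}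

/-- `rc` as a real linear equivalence -/
theorem exists_rcL (ι : Type) [Fintype ι] : ∃ L : (ι → ℂ) ≃L[ℝ] (ι ⊕ ι → ℝ), ∀ z, L z = rc z := by
  let L : (ι → ℂ) ≃ₗ[ℝ] (ι ⊕ ι → ℝ) :=
    { toFun := rc
      invFun := fun q i => ⟨q (Sum.inl i), q (Sum.inr i)⟩
      map_add' := fun z w => by funext i; rcases i with i | i <;> simp [rc]
      map_smul' := fun c z => by funext i; rcases i with i | i <;> simp [rc]
      left_inv := fun z => by funext i; simp [rc]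
      right_inv := fun q => by funext i; rcases i with i | i <;> simp [rc] }
  exact ⟨L.toContinuousLinearEquiv, fun z => rfl⟩

theorem analytic_pev (R : MvPolynomial (ι ⊕ ι) ℝ) : AnalyticOnNhd ℝ (pev R) univ := by
  obtain ⟨L, hL⟩ := exists_rcL ι
  intro z _
  have h1 : AnalyticAt ℝ (fun q : ι ⊕ ι → ℝ => eval q R) (L z) := AnalyticOnNhd.eval_mvPolynomial R _ (mem_univ _)
  have h2 := h1.comp ((L : (ι → ℂ) →L[ℝ] (ι ⊕ ι → ℝ)).analyticAt z)
  have : pev R = (fun q : ι ⊕ ι → ℝ => eval q R) ∘ (L : (ι → ℂ) →L[ℝ] (ι ⊕ ι → ℝ)) := by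
    funext w; simp [pev, hL]
  rw [this]; exact h2

theorem pev_ne {R : MvPolynomial (ι ⊕ ι) ℝ} (hR : R ≠ 0) : ∃ z, pev R z ≠ 0 := by
  obtain ⟨L, hL⟩ := exists_rcL ι
  by_contra h
  push Not at h
  refine hR (MvPolynomial.funext fun q => ?_)
  have := h (L.symm q)
  rw [pev, ← hL, L.apply_symm_apply] at this
  simpa using this

/-- real and imaginary parts of a complex polynomial, over any subfield containing those of the coefficients -/
theorem exists_re_im (f : MvPolynomial ι ℂ) (h : ∀ m, (coeff m f).re ∈ 𝕜 ∧ (coeff m f).im ∈ 𝕜) :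
    ∃ f₁ f₂ : MvPolynomial (ι ⊕ ι) 𝕜, ∀ z : ι → ℂ,
      aeval (rc z) f₁ = (eval z f).re ∧ aeval (rc z) f₂ = (eval z f).im := by
  let S : Subring (MvPolynomial ι ℂ) :=
    { carrier := {f | ∃ f₁ f₂ : MvPolynomial (ι ⊕ ι) 𝕜, ∀ z : ι → ℂ,
        aeval (rc z) f₁ = (eval z f).re ∧ aeval (rc z) f₂ = (eval z f).im}
      mul_mem' := by
        rintro f g ⟨f₁, f₂, hf⟩ ⟨g₁, g₂, hg⟩
        refine ⟨f₁ * g₁ - f₂ * g₂, f₁ * g₂ + f₂ * g₁, fun z => ?_⟩
        simp [(hf z).1, (hf z).2, (hg z).1, (hg z).2]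
      one_mem' := ⟨1, 0, fun z => by simp⟩
      add_mem' := by
        rintro f g ⟨f₁, f₂, hf⟩ ⟨g₁, g₂, hg⟩
        refine ⟨f₁ + g₁, f₂ + g₂, fun z => ?_⟩
        simp [(hf z).1, (hf z).2, (hg z).1, (hg z).2]
      zero_mem' := ⟨0, 0, fun z => by simp⟩
      neg_mem' := by
        rintro f ⟨f₁, f₂, hf⟩
        refine ⟨-f₁, -f₂, fun z => ?_⟩
        simp [(hf z).1, (hf z).2] }
  have hX : ∀ i, X i ∈ S := fun i => ⟨X (Sum.inl i), X (Sum.inr i), fun z => by simp [rc]⟩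
  have hC : ∀ m, C (coeff m f) ∈ S := fun m =>
    ⟨C ⟨_, (h m).1⟩, C ⟨_, (h m).2⟩, fun z => by simp; exact ⟨rfl, rfl⟩⟩
  have : f ∈ S := by
    rw [f.as_sum]
    refine S.sum_mem fun m _ => ?_
    rw [monomial_eq]
    exact S.mul_mem (hC m) (S.prod_mem fun i _ => S.pow_mem (hX i) _)
  exact this

theorem exists_coeff_field (𝕜 : Subfield ℝ) [Countable 𝕜] {s : Set (MvPolynomial ι ℂ)} (hs : s.Countable) :
    ∃ 𝕜' : Subfield ℝ, 𝕜 ≤ 𝕜' ∧ Countable 𝕜' ∧ ∀ f ∈ s, ∀ m, (coeff m f).re ∈ 𝕜' ∧ (coeff m f).im ∈ 𝕜' := by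
  let T : Set ℝ := (𝕜 : Set ℝ) ∪ ⋃ f ∈ s, ((range fun m => (coeff m f).re) ∪ range fun m => (coeff m f).im)
  have hT : T.Countable := by
    refine Countable.union (countable_coe_iff.1 ‹_›) (hs.biUnion fun f _ => ?_)
    exact (countable_range _).union (countable_range _)
  refine ⟨Subfield.closure T, fun x hx => Subfield.subset_closure (Or.inl hx), countable_closure hT,
    fun f hf m => ⟨Subfield.subset_closure (Or.inr ?_), Subfield.subset_closure (Or.inr ?_)⟩⟩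
  · exact mem_biUnion hf (Or.inl ⟨m, rfl⟩)
  · exact mem_biUnion hf (Or.inr ⟨m, rfl⟩)

/-- polarisation: `RR (z, conj z) = R (re z, im z)` -/
theorem exists_polar (R : MvPolynomial (ι ⊕ ι) ℝ) : ∃ RR : MvPolynomial (ι ⊕ ι) ℂ,
    ∀ z : ι → ℂ, eval (Sum.elim z fun i => (starRingEnd ℂ) (z i)) RR = (pev R z : ℂ) := by
  induction R using MvPolynomial.induction_on with
  | C a => exact ⟨C (a : ℂ), fun z => by simp [pev]⟩
  | add p q hp hq =>
    obtain ⟨P, hP⟩ := hp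
    obtain ⟨Q, hQ⟩ := hq
    exact ⟨P + Q, fun z => by simp only [map_add, hP, hQ, pev]; push_cast; rfl⟩
  | mul_X p i hp =>
    obtain ⟨P, hP⟩ := hp
    rcases i with i | i
    · refine ⟨P * (C (1 / 2) * (X (Sum.inl i) + X (Sum.inr i))), fun z => ?_⟩
      simp only [map_mul, hP, pev, eval_C, map_add, eval_X, Sum.elim_inl, Sum.elim_inr, rc]
      push_cast
      rw [Complex.re_eq_add_conj]; ring
    · refine ⟨P * (C (1 / (2 * Complex.I)) * (X (Sum.inl i) - X (Sum.inr i))), fun z => ?_⟩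
      simp only [map_mul, hP, pev, eval_C, map_sub, eval_X, Sum.elim_inl, Sum.elim_inr, rc]
      push_cast
      rw [Complex.im_eq_sub_conj]; ring

theorem Thin.isClosed {C : Set (ι → ℂ)} (h : Thin C) : IsClosed C := by
  obtain ⟨𝕜, -, C', hC', -, rfl⟩ := h
  obtain ⟨L, hL⟩ := exists_rcL ι
  have : (rc : (ι → ℂ) → _) = L := funext fun z => (hL z).symm
  rw [this]
  exact hC'.isClosed.preimage L.continuous

theorem small_graph {E : Type} [NormedAddCommGroup E] [NormedSpace ℂ E] [NormedSpace ℝ E] [IsScalarTower ℝ ℂ E]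
    [FiniteDimensional ℂ E] (L : E ≃L[ℝ] (σ → ℝ)) {B : Finset σ} (hB : B.card + 2 ≤ Fintype.card σ)
    {Z : Set (σ → ℝ)} {x : E} {Γ : (B → ℝ) → σ → ℝ} (hΓ : AnalyticAt ℝ Γ fun i => L x i)
    (h : ∀ᶠ z' in 𝓝 (L x), z' ∈ Z → Γ (fun i => z' i) = z') :
    ∃ O, IsOpen O ∧ x ∈ O ∧ Small (univ ∩ O) (L ⁻¹' Z) := by
  obtain ⟨a, ha, b, hb, hab⟩ := Finset.one_lt_card.1 (show 1 < Bᶜ.card by rw [Finset.card_compl]; omega)
  rw [Finset.mem_compl] at ha hb
  let ρ : E →L[ℝ] (B → ℝ) :=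
    (ContinuousLinearMap.pi fun i : B => ContinuousLinearMap.proj (i : σ)).comp (L : E →L[ℝ] (σ → ℝ))
  let p : (σ → ℝ) →L[ℝ] ℝ × ℝ := (ContinuousLinearMap.proj a).prod (ContinuousLinearMap.proj b)
  have h1 : ∀ᶠ w in 𝓝 x, AnalyticAt ℝ Γ (ρ w) := ρ.continuous.continuousAt.eventually hΓ.eventually_analyticAt
  obtain ⟨O, hO, oO, xO⟩ := eventually_nhds_iff.1 (h1.and (L.continuous.continuousAt.eventually h))
  refine ⟨O, oO, xO, fun _ => O, fun _ w => p (L w - Γ (ρ w)), fun _ => ⟨oO, fun w hw => ?_, fun w hw _ c => ?_⟩,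
    fun w hw => ⟨0, hw.2.2, ?_⟩⟩
  · exact ((p.analyticAt _).comp (((L : E →L[ℝ] (σ → ℝ)).analyticAt w).sub
      ((hO w hw).1.comp (ρ.analyticAt w)))).contDiffAt.contDiffWithinAt
  · refine ⟨L.symm (Pi.single a c.1 + Pi.single b c.2), ?_, ?_⟩
    · rw [Tan_of_mem_nhds (inter_mem univ_mem (oO.mem_nhds hw.2))]; trivial
    · have hd : HasFDerivAt (fun w => p (L w - Γ (ρ w)))
          (p.comp ((L : E →L[ℝ] (σ → ℝ)) - (fderiv ℝ Γ (ρ w)).comp ρ)) w :=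
        p.hasFDerivAt.comp w (L.hasFDerivAt.sub
          ((hO w hw.2).1.differentiableAt.hasFDerivAt.comp w ρ.hasFDerivAt))
      have h0 : ρ (L.symm (Pi.single a c.1 + Pi.single b c.2)) = 0 := by
        funext i
        have ia : (i : σ) ≠ a := fun e => ha (e ▸ i.2)
        have ib : (i : σ) ≠ b := fun e => hb (e ▸ i.2)
        simp [ρ, ia, ib]
      rw [hd.fderiv, ContinuousLinearMap.comp_apply, sub_apply, ContinuousLinearMap.comp_apply, h0, map_zero,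
        sub_zero, ContinuousLinearEquiv.coe_coe, L.apply_symm_apply]
      simp [p, hab, hab.symm]
  · have : Γ (ρ w) = L w := (hO w hw.2.2).2 hw.1
    simp [this]

theorem small_alg {E : Type} [NormedAddCommGroup E] [NormedSpace ℂ E] [NormedSpace ℝ E] [IsScalarTower ℝ ℂ E]
    [FiniteDimensional ℂ E] (L : E ≃L[ℝ] (σ → ℝ)) [Countable 𝕜] (d : ℕ) : ∀ C : Set (σ → ℝ), IsAlg 𝕜 C →
      (∀ q ∈ C, td 𝕜 q < d ∧ td 𝕜 q + 2 ≤ Fintype.card σ) → Small univ (L ⁻¹' C) := by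
  induction d with
  | zero => exact fun C _ h => (Small.empty univ).mono fun x hx => absurd (h _ hx.1).1 (Nat.not_lt_zero _)
  | succ d ih =>
    intro C hC h
    obtain ⟨Q, hQ, -, hcov, hgen⟩ := generic_points (𝕜 := 𝕜) (subset_univ C)
      fun z _ => Eventually.of_forall fun _ _ => trivial
    have : Countable Q := hQ.countable
    refine (Small.iUnion (S := fun q : Q => L ⁻¹' ZS (IS 𝕜 {q.1})) fun ⟨q, hq⟩ => ?_).mono fun x hx => ?_
    · have qC : q ∈ C := by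
        by_contra hn
        obtain ⟨f, f1, f2⟩ := hC.exists_poly hn
        obtain ⟨z, z1, -, z2⟩ := hgen q hq f f1
        exact z2 (f2 z z1)
      obtain ⟨B, -, hc, hB, hA⟩ := tdb_basis 𝕜 q (S := ∅) algebraicIndependent_empty_type
      obtain ⟨g, g1, g2⟩ := gen_smooth_pt hB hA
      have s1 := ih (ZS (IS 𝕜 {q}) ∩ ZS {g}) (IsAlg.inter ⟨_, rfl⟩ ⟨_, rfl⟩) fun z hz => by
        have := td_lt_of_spec hz.1 g1 (hz.2 g rfl)
        have := h q qC
        omega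
      have s2 : Small univ (L ⁻¹' (ZS (IS 𝕜 {q}) ∩ {z | aeval z g ≠ 0})) := Small.of_local fun x hx => by
        obtain ⟨Γ, a1, -, -, a2⟩ := g2 (L x) hx.1.1 hx.1.2
        exact small_graph L (hc ▸ (h q qC).2) a1 (a2.mono fun z hz hz' => hz hz'.1)
      refine (s1.union s2).mono fun x hx => ?_
      by_cases e : aeval (L x) g = 0
      · exact Or.inl ⟨hx.1, fun f hf => hf ▸ e⟩
      · exact Or.inr ⟨hx.1, e⟩
    · obtain ⟨q, hq, hx'⟩ := mem_iUnion₂.1 (hcov hx.1)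
      exact mem_iUnion.2 ⟨⟨q, hq⟩, hx'⟩

/-- `generic_points`, `gen_smooth_pt` and induction on the dimension (`td_lt_of_spec`): an algebraic set of
codimension `≥ 2` is a countable (finite) union of pieces of graphs over at most `2 card ι - 2` coordinates -/
theorem Thin.small {C : Set (ι → ℂ)} (h : Thin C) : Small univ C := by
  obtain ⟨𝕜, hk, C', hC', hd, rfl⟩ := h
  obtain ⟨L, hL⟩ := exists_rcL ι
  have : (rc : (ι → ℂ) → _) = L := funext fun z => (hL z).symm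
  rw [this]
  refine small_alg L (Fintype.card (ι ⊕ ι)) C' hC' fun q hq => ?_
  have := hd q hq
  rw [Fintype.card_sum]
  omega

theorem Thin.union {C C' : Set (ι → ℂ)} (h : Thin C) (h' : Thin C') : Thin (C ∪ C') := by
  obtain ⟨𝕜, hk, D, hD, hd, rfl⟩ := h
  obtain ⟨𝕜', hk', D', hD', hd', rfl⟩ := h'
  refine ⟨𝕜 ⊔ 𝕜', countable_sup, D ∪ D', (hD.mono_field le_sup_left).union (hD'.mono_field le_sup_right), ?_, rfl⟩
  rintro q (hq | hq)
  · have := td_mono_field (le_sup_left : 𝕜 ≤ 𝕜 ⊔ 𝕜') q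
    have := hd q hq
    omega
  · have := td_mono_field (le_sup_right : 𝕜' ≤ 𝕜 ⊔ 𝕜') q
    have := hd' q hq
    omega

theorem Thin.empty : Thin (∅ : Set (ι → ℂ)) := by
  refine ⟨Subfield.closure ∅, countable_closure countable_empty, ∅, ⟨{1}, ?_⟩, by simp, rfl⟩
  ext q
  simp [ZS]

theorem cxz_deriv (f : MvPolynomial ι ℂ) (z : ι → ℂ) : HasFDerivAt (fun z : ι → ℂ => eval z f)
    (∑ i, eval z (pderiv i f) • (ContinuousLinearMap.proj i : (ι → ℂ) →L[ℂ] ℂ)) z := by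
  induction f using MvPolynomial.induction_on with
  | C a =>
    simp only [eval_C]
    refine (hasFDerivAt_const a z).congr_fderiv ?_
    ext v
    simp
  | add f g hf hg =>
    simp only [map_add]
    refine (hf.add hg).congr_fderiv ?_
    ext v
    simp [Finset.sum_add_distrib, add_mul]
  | mul_X f j hf =>
    simp only [map_mul, eval_X]
    refine (hf.mul (hasFDerivAt_apply j z)).congr_fderiv ?_
    ext v
    simp [pderiv_X, Pi.single_apply, Finset.sum_add_distrib, add_mul, Finset.mul_sum, apply_ite, mul_assoc]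

theorem cxz_red (z : ι → ℂ) (n : ℕ) : ∀ h : MvPolynomial ι ℂ, h.totalDegree ≤ n → h ≠ 0 →
    (∀ m, (coeff m h).re ∈ 𝕜 ∧ (coeff m h).im ∈ 𝕜) → eval z h = 0 →
    ∃ g : MvPolynomial ι ℂ, (∀ m, (coeff m g).re ∈ 𝕜 ∧ (coeff m g).im ∈ 𝕜) ∧ eval z g = 0 ∧
      ∃ i, eval z (pderiv i g) ≠ 0 := by
  have base : ∀ h : MvPolynomial ι ℂ, h.totalDegree = 0 → h ≠ 0 → eval z h ≠ 0 := by
    intro h h0 hne hz
    rw [totalDegree_eq_zero_iff_eq_C] at h0
    rw [h0, eval_C] at hz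
    exact hne (by rw [h0, hz, C_0])
  induction n with
  | zero => exact fun h h0 hne _ hz => (base h (Nat.le_zero.1 h0) hne hz).elim
  | succ n ih =>
    intro h hn hne hc hz
    by_cases h1 : ∃ i, eval z (pderiv i h) ≠ 0
    · exact ⟨h, hc, hz, h1⟩
    push Not at h1
    by_cases h2 : ∃ i, pderiv i h ≠ 0
    · obtain ⟨i, hi⟩ := h2
      refine ih _ (Finset.sup_le fun m hm => ?_) hi (fun m => ?_) (h1 i)
      · rw [mem_support_iff, coeff_pderiv] at hm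
        have h3 := (le_totalDegree (mem_support_iff.2 (left_ne_zero_of_mul hm))).trans hn
        rw [Finsupp.sum_add_index' (fun _ => rfl) (fun _ _ _ => rfl), Finsupp.sum_single_index rfl] at h3
        omega
      · rw [coeff_pderiv]
        have h3 : ((m i : ℝ) + 1) ∈ 𝕜 := 𝕜.add_mem (natCast_mem 𝕜 _) 𝕜.one_mem
        constructor
        · simpa using 𝕜.mul_mem (hc _).1 h3
        · simpa using 𝕜.mul_mem (hc _).2 h3
    push Not at h2
    refine (base h ?_ hne hz).elim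
    rw [totalDegree_eq_zero_iff]
    intro m hm i
    by_contra hi
    have h3 := coeff_pderiv (i := i) h (m - Finsupp.single i 1)
    rw [h2 i, coeff_zero, tsub_add_cancel_of_le (by simpa using Nat.one_le_iff_ne_zero.2 hi)] at h3
    rcases mul_eq_zero.1 h3.symm with h4 | h4
    · exact mem_support_iff.1 hm h4
    · exact Nat.cast_add_one_ne_zero _ h4

/-- complex hypersurfaces are thin.  With `K = 𝕜(I) ⊆ ℂ` containing the coefficients: the field generated by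
`rc z` and `I` is generated by `z` and `conj z`, each of transcendence degree `≤ card ι - 1`. -/
theorem thin_zero {h : MvPolynomial ι ℂ} (hne : h ≠ 0) : Thin {z | eval z h = 0} := by
  have := countable_closure (countable_empty : (∅ : Set ℝ).Countable)
  obtain ⟨𝕜, -, hk, hc⟩ := exists_coeff_field (Subfield.closure ∅) (countable_singleton h)
  have hc := hc h rfl
  obtain ⟨h₁, h₂, hh⟩ := exists_re_im h hc
  obtain ⟨L, hL⟩ := exists_rcL ι
  have hmem : ∀ z : ι → ℂ, rc z ∈ ZS ({h₁, h₂} : Set (MvPolynomial (ι ⊕ ι) 𝕜)) ↔ eval z h = 0 := by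
    intro z
    simp [ZS, (hh z).1, (hh z).2, Complex.ext_iff]
  refine ⟨𝕜, hk, ZS {h₁, h₂}, ⟨_, rfl⟩, fun q hq => ?_, by ext z; exact (hmem z).symm⟩
  obtain ⟨z, rfl⟩ := L.surjective q
  rw [hL, hmem] at hq
  by_contra hlt
  obtain ⟨g, hg, hg0, i₀, hi₀⟩ := cxz_red z _ h le_rfl hne hc hq
  obtain ⟨g₁, g₂, hgg⟩ := exists_re_im g hg
  obtain ⟨B, -, hBc, hB, -⟩ := tdb_basis 𝕜 (L z) (S := ∅) algebraicIndependent_empty_type
  have : Nonempty (ι ⊕ ι) := ⟨Sum.inl i₀⟩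
  obtain ⟨j, hj⟩ := (Finset.card_le_one_iff_subset_singleton (s := Bᶜ)).1 (by
    rw [Finset.card_compl, Fintype.card_sum]; omega)
  set D : (ι → ℂ) →L[ℂ] ℂ := ∑ i, eval z (pderiv i g) • (ContinuousLinearMap.proj i : (ι → ℂ) →L[ℂ] ℂ) with hD
  set l : (ι ⊕ ι → ℝ) →L[ℝ] ℂ := (D.restrictScalars ℝ).comp (L.symm : (ι ⊕ ι → ℝ) →L[ℝ] (ι → ℂ)) with hl
  have hd : HasFDerivAt (fun q => eval (L.symm q) g) l (L z) := by
    have h1 : HasFDerivAt (fun z => eval z g) (D.restrictScalars ℝ) (L.symm (L z)) := by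
      rw [L.symm_apply_apply]
      exact (cxz_deriv g z).restrictScalars ℝ
    exact h1.comp (L z) L.symm.hasFDerivAt
  have e1 : (fun q : ι ⊕ ι → ℝ => aeval q g₁) = Complex.reCLM ∘ fun q => eval (L.symm q) g := by
    funext q
    rw [Function.comp_apply, Complex.reCLM_apply, ← (hgg _).1, ← hL, L.apply_symm_apply]
  have e2 : (fun q : ι ⊕ ι → ℝ => aeval q g₂) = Complex.imCLM ∘ fun q => eval (L.symm q) g := by
    funext q
    rw [Function.comp_apply, Complex.imCLM_apply, ← (hgg _).2, ← hL, L.apply_symm_apply]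
  have key : ∀ ζ : ℂ, ∃ t : ℝ, ζ = t • l (Pi.single j 1) := by
    intro ζ
    set c : ι ⊕ ι → ℝ := L (Pi.single i₀ (ζ / eval z (pderiv i₀ g))) with hc
    have hlc : l c = ζ := by
      simp only [hl, hc, hD, ContinuousLinearMap.comp_apply, ContinuousLinearEquiv.coe_coe, L.symm_apply_apply,
        ContinuousLinearMap.coe_restrictScalars', sum_apply, smul_apply, ContinuousLinearMap.proj_apply, smul_eq_mul]
      rw [Finset.sum_eq_single i₀ (fun b _ hb => by simp [hb]) (by simp), Pi.single_eq_same,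
        mul_div_cancel₀ _ hi₀]
    obtain ⟨v, hv1, hv2⟩ := tangent_surj (S := (B : Set (ι ⊕ ι))) hB c
    have k1 := hv2 g₁ (by rw [hL, (hgg z).1, hg0]; rfl)
    have k2 := hv2 g₂ (by rw [hL, (hgg z).2, hg0]; rfl)
    rw [← fderiv_aeval, e1, (Complex.reCLM.hasFDerivAt.comp (L z) hd).fderiv] at k1
    rw [← fderiv_aeval, e2, (Complex.imCLM.hasFDerivAt.comp (L z) hd).fderiv] at k2
    have hlv : l v = 0 := Complex.ext k1 k2
    have hv : c = v + (c j - v j) • (Pi.single j 1 : ι ⊕ ι → ℝ) := by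
      funext i
      by_cases hi : i = j
      · subst hi; simp
      · have hiB : i ∈ B := by
          by_contra hn
          exact hi (Finset.mem_singleton.1 (hj (Finset.mem_compl.2 hn)))
        simp [hi, hv1 i hiB]
    refine ⟨c j - v j, ?_⟩
    rw [← hlc]
    conv_lhs => rw [hv, map_add, hlv, zero_add, map_smul]
  obtain ⟨t₁, h1⟩ := key 1
  obtain ⟨t₂, h2⟩ := key Complex.I
  have a1 := congrArg Complex.re h1
  have a2 := congrArg Complex.im h1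
  have a3 := congrArg Complex.im h2
  simp only [Complex.one_re, Complex.one_im, Complex.I_im, Complex.smul_re, Complex.smul_im, smul_eq_mul] at a1 a2 a3
  rcases mul_eq_zero.1 a2.symm with h0 | h0
  · simp [h0] at a1
  · simp [h0] at a3

theorem IsAlg.exists_sos {S : Set (σ → ℝ)} (h : IsAlg 𝕜 S) :
    ∃ f : MvPolynomial σ 𝕜, ∀ q : σ → ℝ, aeval q f = 0 ↔ q ∈ S := by
  obtain ⟨J, rfl⟩ := h
  obtain ⟨T, hT⟩ := (IsNoetherian.noetherian (Ideal.span J) : (Ideal.span J).FG)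
  refine ⟨∑ f ∈ T, f ^ 2, fun q => ?_⟩
  simp only [map_sum, map_pow]
  rw [Finset.sum_eq_zero_iff_of_nonneg fun f _ => sq_nonneg _]
  have key : ∀ U : Set (MvPolynomial σ 𝕜), (∀ f ∈ U, aeval q f = 0) ↔ Ideal.span U ≤ RingHom.ker (aeval q).toRingHom := by
    intro U
    rw [Ideal.span_le]
    rfl
  have hT' : Ideal.span (T : Set (MvPolynomial σ 𝕜)) = Ideal.span J := hT
  show _ ↔ ∀ f ∈ J, aeval q f = 0
  rw [key J, ← hT', ← key]
  simp

/-- a sum of squares of generators of the ideal (Hilbert basis theorem); nonzero since `C ≠ univ` (`dense_indep`) -/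
theorem Thin.exists_poly {C : Set (ι → ℂ)} (h : Thin C) :
    ∃ R : MvPolynomial (ι ⊕ ι) ℝ, R ≠ 0 ∧ ∀ z, pev R z = 0 ↔ z ∈ C := by
  obtain ⟨𝕜, hk, C', hC', hd, rfl⟩ := h
  obtain ⟨f, hf⟩ := hC'.exists_sos
  refine ⟨map 𝕜.subtype f, fun h0 => ?_, fun z => ?_⟩
  · obtain ⟨q, hq⟩ := (dense_indep (σ := ι ⊕ ι) (𝕜 := 𝕜)).nonempty
    have h1 : q ∈ C' := by rw [← hf, aeval_eq_eval_map, h0, map_zero]
    have h2 := hd q h1
    have h3 := card_le_td (𝕜 := 𝕜) (q := q) (S := Finset.univ) (hq.comp _ Subtype.val_injective)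
    simp only [Finset.card_univ, Fintype.card_sum] at h3
    omega
  · rw [pev, ← aeval_eq_eval_map, hf]; rfl

/-- `M` is locally an analytic graph over the coordinates `e : τ → σ`, open in its Zariski closure, and its points are
algebraic over these coordinates -/
structure GrA (𝕜 : Subfield ℝ) (M : Set (σ → ℝ)) (e : τ → σ) (Γ : (σ → ℝ) → (τ → ℝ) → σ → ℝ) : Prop where
  an : ∀ z ∈ M, AnalyticAt ℝ (Γ z) (z ∘ e)
  self : ∀ z ∈ M, Γ z (z ∘ e) = z
  mem : ∀ z ∈ M, ∀ᶠ x in 𝓝 (z ∘ e), Γ z x ∘ e = x ∧ Γ z x ∈ M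
  uniq : ∀ z ∈ M, ∀ᶠ q in 𝓝 z, q ∈ ZS (IS 𝕜 M) → Γ z (q ∘ e) = q
  alg : ∀ z ∈ M, td 𝕜 z ≤ td 𝕜 (z ∘ e)

theorem tendsto_comp_coord (z : σ → ℝ) (e : τ → σ) : Tendsto (fun q : σ → ℝ => q ∘ e) (𝓝 z) (𝓝 (z ∘ e)) :=
  (continuous_pi fun j => continuous_apply (e j)).continuousAt

theorem GrA.open_in {M : Set (σ → ℝ)} {e : τ → σ} {Γ : (σ → ℝ) → (τ → ℝ) → σ → ℝ} (h : GrA 𝕜 M e Γ)
    (f : MvPolynomial σ 𝕜) : ∀ z ∈ M ∩ {z | aeval z f = 0}, ∀ᶠ q in 𝓝 z,
      q ∈ ZS (IS 𝕜 (M ∩ {z | aeval z f = 0})) → q ∈ M ∩ {z | aeval z f = 0} := by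
  intro z hz
  filter_upwards [h.uniq z hz.1, (tendsto_comp_coord z e).eventually (h.mem z hz.1)] with q h1 h2 hq
  refine ⟨?_, hq f fun w hw => hw.2⟩
  rw [← h1 (ZS_IS_mono inter_subset_left hq)]
  exact h2.2

theorem GrA.alg_range {M : Set (σ → ℝ)} {e : τ → σ} {Γ : (σ → ℝ) → (τ → ℝ) → σ → ℝ} (h : GrA 𝕜 M e Γ)
    {q : σ → ℝ} (hq : q ∈ M) (j : σ) : IsAlgebraic (Algebra.adjoin 𝕜 (q '' range e)) (q j) := by
  rw [← range_comp]
  exact alg_of_td_le e (h.alg q hq) j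

theorem GrA.lift {M : Set (σ → ℝ)} {e : τ → σ} (he : Function.Injective e)
    {Γ : (σ → ℝ) → (τ → ℝ) → σ → ℝ} (h : GrA 𝕜 M e Γ) {q : σ → ℝ} (hq : q ∈ M) {B : Finset σ}
    (hBe : (B : Set σ) ⊆ range e) (hB : AlgebraicIndependent 𝕜 fun i : B => q i)
    (hA : ∀ j, IsAlgebraic (Algebra.adjoin 𝕜 (q '' B)) (q j)) :
    ∃ g : MvPolynomial σ 𝕜, aeval q g ≠ 0 ∧ ∀ z ∈ M, z ∈ ZS (IS 𝕜 {q}) → aeval z g ≠ 0 →
      ∃ φ : (τ → ℝ) → τ → ℝ, Tendsto φ (𝓝 (z ∘ e)) (𝓝 (z ∘ e)) ∧ ∀ᶠ x in 𝓝 (z ∘ e),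
        (∀ j, e j ∈ B → φ x j = x j) ∧ Γ z (φ x) ∈ ZS (IS 𝕜 {q}) ∧ Γ z (φ x) ∘ e = φ x := by
  obtain ⟨g, hg, hgz⟩ := gen_smooth_pt hB hA
  refine ⟨g, hg, fun z hz hzq hzg => ?_⟩
  obtain ⟨Γ', han, hself, hmem, -⟩ := hgz z hzq hzg
  choose inv hinv using fun b : B => hBe b.2
  have ht : Tendsto (fun x : τ → ℝ => x ∘ inv) (𝓝 (z ∘ e)) (𝓝 fun i : B => z i) := by
    have := tendsto_comp_coord (z ∘ e) inv
    rwa [show (z ∘ e) ∘ inv = fun i : B => z i from funext fun i => by simp [hinv]] at this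
  have ht2 : Tendsto (fun x : τ → ℝ => Γ' (x ∘ inv)) (𝓝 (z ∘ e)) (𝓝 z) := by
    have := han.continuousAt.tendsto.comp ht
    rwa [hself] at this
  refine ⟨fun x => Γ' (x ∘ inv) ∘ e, (tendsto_comp_coord z e).comp ht2, ?_⟩
  filter_upwards [ht.eventually hmem, ht2.eventually (h.uniq z hz)] with x h1 h2
  have h3 := h2 (ZS_IS_mono (singleton_subset_iff.2 hq) h1.2)
  refine ⟨fun j hj => ?_, by rw [h3]; exact h1.2, by rw [h3]⟩
  have h4 := h1.1 ⟨e j, hj⟩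
  have h5 : inv ⟨e j, hj⟩ = j := he (hinv _)
  simpa [h5] using h4

/-- X1: the projection of `M ∩ {f = 0}` lies in a hypersurface when `f` vanishes on no open piece of `M`.
(`generic_points` for `S = Y = M ∩ {f = 0}`; a generic point `q` has `td (q ∘ e) < card τ`, otherwise
`gen_smooth_pt` with a basis among the coordinates `e` shows `f = 0` near `q` on `M`.) -/
theorem GrA.hyp [Countable 𝕜] {M : Set (σ → ℝ)} {e : τ → σ} (he : Function.Injective e)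
    {Γ : (σ → ℝ) → (τ → ℝ) → σ → ℝ} (h : GrA 𝕜 M e Γ) {f : MvPolynomial σ 𝕜}
    (hf : ∀ z ∈ M, ∃ᶠ x in 𝓝 (z ∘ e), aeval (Γ z x) f ≠ 0) :
    ∃ R₁ : MvPolynomial τ 𝕜, R₁ ≠ 0 ∧ ∀ z ∈ M, aeval z f = 0 → aeval (z ∘ e) R₁ = 0 := by
  obtain ⟨Δ, hΔ, hz⟩ := vanish_proj (𝕜 := 𝕜) Subset.rfl (h.open_in f) e (fun q hq hi => by
    exfalso
    have hS : AlgebraicIndependent 𝕜 fun i : range e => q i := by
      choose inv hinv using fun b : range e => b.2
      have hinj : Function.Injective inv := fun b b' hb => Subtype.ext (by rw [← hinv b, ← hinv b', hb])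
      have := hi.comp inv hinj
      rwa [show (q ∘ e) ∘ inv = fun i : range e => q i from funext fun i => by simp [hinv]] at this
    obtain ⟨B, hB1, hB2, -, hB, hA⟩ := exists_basis 𝕜 q Subset.rfl hS (h.alg_range hq.1)
    obtain ⟨g, hg, hgz⟩ := h.lift he hq.1 hB2 hB hA
    obtain ⟨φ, -, hφ⟩ := hgz q hq.1 (spec_self q) hg
    obtain ⟨x, hx, h1, h2, -⟩ := ((hf q hq.1).and_eventually hφ).exists
    have : φ x = x := funext fun j => h1 j (hB1 ⟨j, rfl⟩)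
    rw [this] at h2
    exact hx (mem_spec.1 h2 f hq.2))
  exact ⟨Δ, hΔ, fun z hzM h0 => hz z ⟨hzM, h0⟩⟩

theorem GrA.spread {M : Set (σ → ℝ)} {e : τ → σ} (he : Function.Injective e)
    {Γ : (σ → ℝ) → (τ → ℝ) → σ → ℝ} (h : GrA 𝕜 M e Γ) {R₁ : MvPolynomial τ 𝕜} (hR : R₁ ≠ 0) {q : σ → ℝ}
    (hq : q ∈ M) (h0 : aeval (q ∘ e) R₁ = 0) (htd : td 𝕜 q + 1 = Fintype.card τ) :
    ∃ g : MvPolynomial σ 𝕜, aeval q g ≠ 0 ∧ ∀ z ∈ M, z ∈ ZS (IS 𝕜 {q}) → aeval z g ≠ 0 →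
      ∀ᶠ x in 𝓝 (z ∘ e), aeval x R₁ = 0 → Γ z x ∈ ZS (IS 𝕜 {q}) := by
  obtain ⟨B, -, hB2, hBc, hB, hA⟩ := exists_basis 𝕜 q (empty_subset (range e))
    (algebraicIndependent_empty_type) (h.alg_range hq)
  obtain ⟨i, hi⟩ : ∃ i, ∀ j, j ≠ i → e j ∈ B := by
    have h1 : (Finset.univ.filter fun j => e j ∈ B).card = B.card := by
      refine Finset.card_bij (fun j _ => e j) (fun j hj => by simpa using hj) (fun j _ j' _ hjj => he hjj)
        fun b hb => ?_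
      obtain ⟨j, rfl⟩ := hB2 hb
      exact ⟨j, by simpa using hb, rfl⟩
    have h2 := Finset.card_filter_add_card_filter_not (s := Finset.univ) fun j => e j ∈ B
    obtain ⟨i, hi⟩ := Finset.card_eq_one.1
      (show (Finset.univ.filter fun j => ¬ e j ∈ B).card = 1 by rw [Finset.card_univ] at h2; omega)
    refine ⟨i, fun j hj => ?_⟩
    by_contra hc
    have : j ∈ Finset.univ.filter fun j => ¬ e j ∈ B := by simpa using hc
    rw [hi] at this
    exact hj (by simpa using this)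
  obtain ⟨R₀, P₀, hR0, -, -, hP0, hder, hloc⟩ := hyp_generic hR h0 (by have := h.alg q hq; omega)
  have hd := hder i (hB.comp (fun j : {j // j ≠ i} => (⟨e j, hi j j.2⟩ : B))
    fun j j' hjj => Subtype.ext (he (congrArg Subtype.val hjj)))
  obtain ⟨g, hg, hgz⟩ := h.lift he hq hB2 hB hA
  refine ⟨g * rename e (P₀ * pderiv i R₀), ?_, fun z hz hzq hzg => ?_⟩
  · rw [map_mul, aeval_rename, map_mul]
    exact mul_ne_zero hg (mul_ne_zero hP0 hd)
  rw [map_mul, aeval_rename, map_mul] at hzg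
  obtain ⟨φ, hφt, hφ⟩ := hgz z hz hzq (left_ne_zero_of_mul hzg)
  have hz1 := left_ne_zero_of_mul (right_ne_zero_of_mul hzg)
  have hz2 := right_ne_zero_of_mul (right_ne_zero_of_mul hzg)
  obtain ⟨U, hU, hinj⟩ := inj_line (analytic_aeval R₀ (z ∘ e) (mem_univ _)) (v := Pi.single i 1)
    (by rw [fderiv_aeval_single]; exact hz2)
  filter_upwards [hφ, hU, hφt hU, eventually_aeval_ne hz1] with x h1 h2 h3 h4 h5
  have h6 : φ x = x + (φ x i - x i) • (Pi.single i 1 : τ → ℝ) := by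
    funext j
    by_cases hj : j = i
    · subst hj; simp
    · simp [hj, h1.1 j (hi j hj)]
  have h7 : aeval (φ x) R₀ = 0 := by
    have := mem_spec.1 h1.2.1 (rename e R₀) (by rw [aeval_rename]; exact hR0)
    rwa [aeval_rename, h1.2.2] at this
  have h8 := hinj x h2 (φ x i - x i) (by rw [← h6]; exact h3) (by rw [← h6, h7, ((hloc x h4).1.1 h5)])
  rw [h8, zero_smul, add_zero] at h6
  rw [← h6]
  exact h1.2.1

/-- X0 + Lemma G over the hypersurface `{R₁ = 0}` downstairs.  Outside `C₁` the hypersurface is smooth, and every point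
`z ∈ M` over it specialises a point `q ∈ M` of maximal `td` over it, avoids the polynomial `P q`, and the whole branch
through `z` over the hypersurface lies in `ZS (IS {q})` (`gen_smooth_pt` with a basis among the coordinates `e`,
`sign_swap`). -/
theorem GrA.over [Countable 𝕜] {M : Set (σ → ℝ)} {e : τ → σ} (he : Function.Injective e)
    {Γ : (σ → ℝ) → (τ → ℝ) → σ → ℝ} (h : GrA 𝕜 M e Γ) {R₁ : MvPolynomial τ 𝕜} (hR : R₁ ≠ 0)
    (P : (σ → ℝ) → MvPolynomial σ 𝕜)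
    (hP : ∀ q ∈ M, aeval (q ∘ e) R₁ = 0 → td 𝕜 q + 1 = Fintype.card τ → aeval q (P q) ≠ 0) :
    ∃ C₁ : Set (τ → ℝ), IsAlg 𝕜 C₁ ∧ (∀ x ∈ C₁, td 𝕜 x + 2 ≤ Fintype.card τ) ∧
      (∀ x, x ∉ C₁ → aeval x R₁ = 0 → ∃ r : (τ → ℝ) → ℝ, AnalyticAt ℝ r x ∧ fderiv ℝ r x ≠ 0 ∧
        ∀ᶠ x' in 𝓝 x, (aeval x' R₁ = 0 ↔ r x' = 0)) ∧
      ∀ z ∈ M, z ∘ e ∉ C₁ → aeval (z ∘ e) R₁ = 0 → ∃ q ∈ M, aeval (q ∘ e) R₁ = 0 ∧
        td 𝕜 q + 1 = Fintype.card τ ∧ z ∈ ZS (IS 𝕜 {q}) ∧ aeval z (P q) ≠ 0 ∧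
        ∀ᶠ x in 𝓝 (z ∘ e), aeval x R₁ = 0 → Γ z x ∈ ZS (IS 𝕜 {q}) := by
  obtain ⟨C, hC, hCd, hCz⟩ := lemma_G (h.open_in (rename e R₁)) (c := 1) (D := Fintype.card τ)
    (Pr := fun z => ∃ q ∈ M, aeval (q ∘ e) R₁ = 0 ∧
        td 𝕜 q + 1 = Fintype.card τ ∧ z ∈ ZS (IS 𝕜 {q}) ∧ aeval z (P q) ≠ 0 ∧
        ∀ᶠ x in 𝓝 (z ∘ e), aeval x R₁ = 0 → Γ z x ∈ ZS (IS 𝕜 {q})) (fun q hq hqd => by
    have h0 : aeval (q ∘ e) R₁ = 0 := by rw [← aeval_rename]; exact hq.2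
    have htd : td 𝕜 q + 1 = Fintype.card τ := by
      have := h.alg q hq.1
      have := td_lt_card hR h0
      omega
    obtain ⟨g, hg, hgz⟩ := h.spread he hR hq.1 h0 htd
    refine ⟨P q * g, by rw [map_mul]; exact mul_ne_zero (hP q hq.1 h0 htd) hg, fun z hz hzq hzg => ?_⟩
    rw [map_mul] at hzg
    exact ⟨q, hq.1, h0, htd, hzq, left_ne_zero_of_mul hzg, hgz z hz.1 hzq (right_ne_zero_of_mul hzg)⟩)
  obtain ⟨C', hC', hC'd, hCC'⟩ := proj_alg hC (c := 2) (D := Fintype.card τ) hCd e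
  obtain ⟨Cs, hCs, hCsd, hsm⟩ := hyp_smooth hR
  refine ⟨C' ∪ Cs, hC'.union hCs, ?_, fun x hx => hsm x fun hx' => hx (Or.inr hx'), fun z hz hzC h0 => ?_⟩
  · rintro x (hx | hx)
    exacts [hC'd x hx, hCsd x hx]
  · exact hCz z ⟨hz, by show aeval z (rename e R₁) = 0; rw [aeval_rename]; exact h0⟩
      fun hz' => hzC (Or.inl (hCC' z hz'))

/-- Cell structure at a generic point of `C`.  See `Blueprint.lean`, section Cell-alg. -/
theorem cell_alg [Countable 𝕜] {R : MvPolynomial σ 𝕜} (hR : R ≠ 0) {C : Set (σ → ℝ)} (hC : IsAlg 𝕜 C)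
    (hd : ∀ z ∈ C, td 𝕜 z + 2 ≤ Fintype.card σ) {q : σ → ℝ} (hq : q ∈ C) (h0 : aeval q R = 0)
    (htd : td 𝕜 q + 2 = Fintype.card σ) :
    ∃ (v : Fin 2 → σ → ℝ) (y : Fin 2 → MvPolynomial σ 𝕜) (P : MvPolynomial σ 𝕜), (∀ i, aeval q (y i) = 0) ∧
      (∀ i z (s : ℝ), aeval (z + s • v i) (y i) = aeval z (y i)) ∧ aeval q P ≠ 0 ∧
      ∀ z ∈ ZS (IS 𝕜 {q}), aeval z P ≠ 0 →
        (∀ i j, i ≠ j → fderiv ℝ (fun x => aeval x (y i)) z (v j) ≠ 0) ∧
        ∀ᶠ x in 𝓝 z, aeval x R = 0 → (aeval x (y 0) = 0 ↔ aeval x (y 1) = 0) ∧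
          ∀ i, aeval x (y i) ≠ 0 → x ∉ C ∧ ∃ r' : (σ → ℝ) → ℝ, AnalyticAt ℝ r' x ∧ fderiv ℝ r' x (v i) ≠ 0 ∧
            ∀ᶠ x' in 𝓝 x, (aeval x' R = 0 ↔ r' x' = 0) := by
  obtain ⟨v, y, P, hy, hi, hP, hz⟩ := cell_alg' hR hC hd hq htd
  refine ⟨v, y, P, hy, hi, hP, fun z _ hzP => ⟨(hz z hzP).1, ?_⟩⟩
  filter_upwards [eventually_aeval_ne hzP] with x hx
  exact (hz x hx).2

end Crest.Agent.R264
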