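import Crest.Agent.R264.Alg.GS1

/-! Jacobian lemma, generic smoothness over `ℝ` and `ℂ`, generic points, Lemma G. -/

set_option autoImplicit false
set_option linter.unusedSectionVars false
open Set Filter Topology MvPolynomial

namespace Crest.Agent.R264

variable {σ τ : Type} [Fintype σ] [Fintype τ] [DecidableEq σ] [DecidableEq τ] {𝕜 : Subfield ℝ}

/-- Jacobian lemma: a nondegenerate solution of a square system is algebraic.  If `x j` were transcendental over `K`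
there is a `K`-derivation `δ ≠ 0` of the field `K(x)` (char `0`; extend from a transcendence basis, e.g.
`Differential`/`Derivation` extension to separable algebraic extensions, or Kähler differentials), and
`Σ_j ∂_j F i (x) δ (x j) = 0`. -/
theorem jac_alg {K L : Type} [Field K] [Field L] [CharZero K] [Algebra K L] (F : σ → MvPolynomial σ K) (x : σ → L)
    (h0 : ∀ i, aeval x (F i) = 0) (hj : (Matrix.of fun i j => aeval x (pderiv j (F i))).det ≠ 0) (j : σ) :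
    IsAlgebraic K (x j) := by
  let E := IntermediateField.adjoin K (range x)
  let y : σ → E := fun i => ⟨x i, IntermediateField.subset_adjoin _ _ ⟨i, rfl⟩⟩
  have hy : ∀ f : MvPolynomial σ K, algebraMap E L (aeval y f) = aeval x f := fun f =>
    (aeval_algebraMap_apply L y f).symm
  let D := KaehlerDifferential.D K E
  have hdet : (Matrix.of fun i j => aeval y (pderiv j (F i))).det ≠ 0 := fun h => hj (by
    have := congrArg (algebraMap E L) h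
    rw [RingHom.map_det, map_zero] at this
    refine Eq.trans (congrArg Matrix.det ?_) this
    ext a b
    exact (hy _).symm)
  have hD : ∀ i, D (y i) = 0 := by
    intro i
    refine (Module.forall_dual_apply_eq_zero_iff E _).1 fun φ => ?_
    refine congrFun (Matrix.eq_zero_of_mulVec_eq_zero hdet (v := fun i => φ (D (y i))) ?_) i
    funext a
    have h1 : aeval y (F a) = 0 := (algebraMap E L).injective (by rw [hy, h0, map_zero])
    have h2 := congrArg φ (gs_der D y (F a))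
    rw [h1, map_zero, map_zero, map_sum] at h2
    simp only [map_smul, smul_eq_mul] at h2
    exact h2.symm
  have hall : ∀ e : E, D e = 0 := by
    rintro ⟨e, he⟩
    induction he using IntermediateField.adjoin_induction with
    | mem a ha => obtain ⟨i, rfl⟩ := ha; exact hD i
    | algebraMap a => exact D.map_algebraMap a
    | add a b ha hb h1 h2 =>
      change D (⟨a, ha⟩ + ⟨b, hb⟩) = 0
      rw [map_add, h1, h2, add_zero]
    | inv a ha h1 =>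
      change D (⟨a, ha⟩ : E)⁻¹ = 0
      rw [D.leibniz_inv, h1, smul_zero]
    | mul a b ha hb h1 h2 =>
      change D (⟨a, ha⟩ * ⟨b, hb⟩) = 0
      rw [D.leibniz, h1, h2, smul_zero, smul_zero, add_zero]
  have hU : Algebra.FormallyUnramified K E := ⟨subsingleton_of_forall_eq 0 fun w => by
    have hw : w ∈ Submodule.span E (range D) := by
      rw [KaehlerDifferential.span_range_derivation]; trivial
    have : Submodule.span E (range D) ≤ ⊥ := Submodule.span_le.2 (by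
      rintro _ ⟨e, rfl⟩; exact hall e)
    exact this hw⟩
  have hE : Algebra.EssFiniteType K E :=
    IntermediateField.essFiniteType_iff.2 (IntermediateField.fg_adjoin_of_finite (finite_range x))
  have := Algebra.FormallyUnramified.isSeparable K E
  exact (Algebra.IsAlgebraic.isAlgebraic (R := K) (y j)).algebraMap

/-- Generic smoothness.  `𝔭` prime, `x_B` a transcendence basis of `K[x]/𝔭`.  For `j ∉ B` let `F j ∈ 𝔭` be a
polynomial in `x_B, x_j` of minimal degree in `x_j`; `∂_j F j ∉ 𝔭`.  `𝔭` is minimal over `(F j)_j` among primes (a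
smaller prime still has `x_B` as a transcendence basis); `g = Π ∂_j F j * P'` with `P'` in all other minimal primes of
`(F j)`.  Implicit function theorem (`ContDiffAt.implicitFunction` with `ω`, or inverse function theorem for
`x ↦ (x_B, F)`).  Any `f ∉ 𝔭` divides, modulo `𝔭`, a nonzero polynomial in `x_B` (constant term of its minimal
equation). -/
theorem gen_smooth {𝕃 K : Type} [RCLike 𝕃] [Field K] [Algebra K 𝕃] {𝔭 : Ideal (MvPolynomial σ K)} (hp : 𝔭.IsPrime)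
    (B : Finset σ) (hB : ∀ h : MvPolynomial B K, rename Subtype.val h ∈ 𝔭 → h = 0)
    (hA : ∀ j, ∃ f : Polynomial (MvPolynomial B K), f ≠ 0 ∧
      Polynomial.eval₂ (rename Subtype.val : MvPolynomial B K →ₐ[K] MvPolynomial σ K).toRingHom (X j) f ∈ 𝔭) :
    (∀ f, f ∉ 𝔭 → ∃ h : MvPolynomial B K, h ≠ 0 ∧ rename Subtype.val h ∈ 𝔭 ⊔ Ideal.span {f}) ∧
    ∃ g, g ∉ 𝔭 ∧ ∀ z : σ → 𝕃, (∀ f ∈ 𝔭, aeval z f = 0) → aeval z g ≠ 0 →
      ∃ Γ : (B → 𝕃) → σ → 𝕃, AnalyticAt 𝕃 Γ (fun i => z i) ∧ Γ (fun i => z i) = z ∧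
        (∀ᶠ x in 𝓝 (fun i : B => z i), (∀ i : B, Γ x i = x i) ∧ ∀ f ∈ 𝔭, aeval (Γ x) f = 0) ∧
        ∀ᶠ z' in 𝓝 z, (∀ f ∈ 𝔭, aeval z' f = 0) → Γ (fun i => z' i) = z' := by
  have : CharZero K := (algebraMap K 𝕃).charZero
  refine ⟨fun f hf => gs_dvd hp (· ∈ B) hA hf, ?_⟩
  choose f hf0 hfp hfd using fun j => gs_min (p := (· ∈ B)) (j := j) hB (hA j)
  let F : σ → MvPolynomial σ K := fun j => gsE K (· ∈ B) j (f j)
  obtain ⟨P, hP, hP'⟩ := gs_sep (I := Ideal.span (F '' {j | j ∉ B})) hp fun 𝔮 hq hI hle =>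
    gs_eq hq hle (· ∈ B) hB fun j => by
      by_cases hj : j ∈ B
      · obtain ⟨g, g0, g1⟩ := gs_triv (K := K) (p := (· ∈ B)) hj
        exact ⟨g, g0, g1 ▸ Ideal.zero_mem _⟩
      · exact ⟨f j, hf0 j, hI (Ideal.subset_span ⟨j, hj, rfl⟩)⟩
  refine ⟨P * ∏ j ∈ Bᶜ, pderiv j (F j), fun hm => ?_, fun z hz hg => ?_⟩
  · rcases hp.mem_or_mem hm with h | h
    · exact hP h
    · obtain ⟨j, hj, h⟩ := (Ideal.IsPrime.prod_mem_iff (hp := hp)).1 h
      rw [gs_pd_E (p := (· ∈ B)) (Finset.mem_compl.1 hj), pderiv_X_self, mul_one] at h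
      exact hfd j h
  · rw [map_mul, map_prod, mul_ne_zero_iff, Finset.prod_ne_zero_iff] at hg
    obtain ⟨Γ, a1, a2, a3, a4⟩ := gs_graph B (G := fun j z => aeval z (F j)) (z := z)
      (fun j _ => gs_an _ z) (fun j _ => hz _ (hfp j)) fun v h1 h2 => by
        funext j
        by_cases hj : j ∈ B
        · exact h1 j hj
        · have h3 := h2 j hj
          rw [gs_fd, Finset.sum_eq_single j (fun i _ hi => by
            by_cases c : i ∈ B
            · rw [h1 i c, mul_zero]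
            · rw [gs_pd_E (p := (· ∈ B)) c, pderiv_X_of_ne (Ne.symm hi), mul_zero, map_zero, zero_mul])
            (by simp)] at h3
          exact (mul_eq_zero.1 h3).resolve_left (hg.2 j (Finset.mem_compl.2 hj))
    have ht : Tendsto Γ (𝓝 fun i : B => z i) (𝓝 z) := by
      have := a1.continuousAt
      rwa [ContinuousAt, a2] at this
    refine ⟨Γ, a1, a2, ?_, a4.mono fun y hy h => hy fun j _ => h _ (hfp j)⟩
    filter_upwards [a3, ht.eventually ((gs_an P z).continuousAt.eventually_ne hg.1)] with x h1 h2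
    refine ⟨h1.1, hP' (RingHom.ker (aeval (Γ x) : MvPolynomial σ K →ₐ[K] 𝕃)) (RingHom.ker_isPrime _)
      (Ideal.span_le.2 ?_) h2⟩
    rintro _ ⟨j, hj, rfl⟩
    exact h1.2 j hj

/-- every prime has a coordinate transcendence basis -/
theorem exists_prime_basis {K : Type} [Field K] {𝔭 : Ideal (MvPolynomial σ K)} (hp : 𝔭.IsPrime) :
    ∃ B : Finset σ, (∀ h : MvPolynomial B K, rename Subtype.val h ∈ 𝔭 → h = 0) ∧
      ∀ j, ∃ f : Polynomial (MvPolynomial B K), f ≠ 0 ∧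
        Polynomial.eval₂ (rename Subtype.val : MvPolynomial B K →ₐ[K] MvPolynomial σ K).toRingHom (X j) f ∈ 𝔭 := by
  let x : σ → MvPolynomial σ K ⧸ 𝔭 := fun i => Ideal.Quotient.mk 𝔭 (X i)
  have hx : ∀ f : MvPolynomial σ K, aeval x f = Ideal.Quotient.mk 𝔭 f := fun f =>
    congrArg (fun φ : MvPolynomial σ K →ₐ[K] MvPolynomial σ K ⧸ 𝔭 => φ f)
      (MvPolynomial.algHom_ext (g := Ideal.Quotient.mkₐ K 𝔭) fun i => aeval_X _ _)
  classical
  obtain ⟨B, hB, hm⟩ := (Finset.univ.filter fun B : Finset σ => AlgebraicIndepOn K x B).exists_max_image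
    Finset.card ⟨∅, by
      rw [Finset.mem_filter, Finset.coe_empty]
      exact ⟨Finset.mem_univ _, algebraicIndependent_empty_type_iff.2 (algebraMap K _).injective⟩⟩
  have hB' : AlgebraicIndepOn K x B := (Finset.mem_filter.1 hB).2
  refine ⟨B, fun h hh => ?_, fun j => ?_⟩
  · refine algebraicIndependent_iff.1 hB' h ?_
    rw [← Ideal.Quotient.eq_zero_iff_mem, ← hx, aeval_rename] at hh
    exact hh
  · by_cases hj : j ∈ B
    · obtain ⟨f, h1, h2⟩ := gs_triv (K := K) (p := (· ∈ B)) hj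
      exact ⟨f, h1, (show gsE K (· ∈ B) j f ∈ 𝔭 from h2 ▸ 𝔭.zero_mem)⟩
    · have h1 : IsAlgebraic (Algebra.adjoin K (x '' B)) (x j) := by
        by_contra hn
        have h2 := (AlgebraicIndepOn.insert_iff (s := (B : Set σ)) hj).2 ⟨hB', hn⟩
        have h3 := hm (insert j B) (Finset.mem_filter.2 ⟨Finset.mem_univ _, by rwa [Finset.coe_insert]⟩)
        rw [Finset.card_insert_of_notMem hj] at h3
        omega
      obtain ⟨f, h2, h3⟩ := gs_poly x (· ∈ B) j h1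
      rw [hx, Ideal.Quotient.eq_zero_iff_mem] at h3
      exact ⟨f, h2, h3⟩

/-- generic smoothness at a real point with a prescribed transcendence basis -/
theorem gen_smooth_pt {q : σ → ℝ} {B : Finset σ} (hB : AlgebraicIndependent 𝕜 fun i : B => q i)
    (hA : ∀ j, IsAlgebraic (Algebra.adjoin 𝕜 (q '' B)) (q j)) :
    ∃ g : MvPolynomial σ 𝕜, aeval q g ≠ 0 ∧ ∀ z ∈ ZS (IS 𝕜 {q}), aeval z g ≠ 0 →
      ∃ Γ : (B → ℝ) → σ → ℝ, AnalyticAt ℝ Γ (fun i => z i) ∧ Γ (fun i => z i) = z ∧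
        (∀ᶠ x in 𝓝 (fun i : B => z i), (∀ i : B, Γ x i = x i) ∧ Γ x ∈ ZS (IS 𝕜 {q})) ∧
        ∀ᶠ z' in 𝓝 z, z' ∈ ZS (IS 𝕜 {q}) → Γ (fun i => z' i) = z' := by
  have hZ : ∀ z : σ → ℝ, z ∈ ZS (IS 𝕜 {q}) ↔
      ∀ f ∈ RingHom.ker (aeval q : MvPolynomial σ 𝕜 →ₐ[𝕜] ℝ), aeval z f = 0 := fun z => by
    simp [ZS, IS, RingHom.mem_ker]
  obtain ⟨-, g, hg, h⟩ := gen_smooth (𝕃 := ℝ)
    (RingHom.ker_isPrime (aeval q : MvPolynomial σ 𝕜 →ₐ[𝕜] ℝ)) B
    (fun h hh => algebraicIndependent_iff.1 hB h (by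
      rw [RingHom.mem_ker, aeval_rename] at hh; exact hh))
    (fun j => gs_poly q (· ∈ B) j (hA j))
  simp only [hZ]
  exact ⟨g, hg, h⟩

/-- the Zariski tangent space at `q` projects onto the algebraically independent coordinates (same derivations) -/
theorem tangent_surj {q : σ → ℝ} {S : Set σ} (hS : AlgebraicIndependent 𝕜 fun i : S => q i) (c : σ → ℝ) :
    ∃ v : σ → ℝ, (∀ i ∈ S, v i = c i) ∧
      ∀ f : MvPolynomial σ 𝕜, aeval q f = 0 → ∑ i, aeval q (pderiv i f) * v i = 0 := by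
  obtain ⟨B, hSB, -, -, hB, hA⟩ := exists_basis 𝕜 q (subset_univ S) hS fun j =>
    isAlgebraic_algebraMap (⟨q j, Algebra.subset_adjoin ⟨j, trivial, rfl⟩⟩ : Algebra.adjoin 𝕜 (q '' univ))
  obtain ⟨g, hg, h⟩ := gen_smooth_pt hB hA
  obtain ⟨Γ, h1, h2, h3, -⟩ := h q (fun f hf => hf q rfl) hg
  have hd := h1.differentiableAt.hasFDerivAt
  refine ⟨fderiv ℝ Γ (fun i => q i) fun i => c i, fun i hi => ?_, fun f hf => ?_⟩
  · have e : (fun x => Γ x i) =ᶠ[𝓝 fun i : B => q i] fun x => x ⟨i, hSB hi⟩ :=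
      h3.mono fun x hx => hx.1 ⟨i, hSB hi⟩
    have a1 := (hasFDerivAt_pi'.1 hd i).congr_of_eventuallyEq e.symm
    exact congrArg (fun L : (B → ℝ) →L[ℝ] ℝ => L fun i => c i)
      (a1.unique (hasFDerivAt_apply (⟨i, hSB hi⟩ : B) _))
  · rw [← gs_fd]
    have e : (fun x => aeval (Γ x) f) =ᶠ[𝓝 fun i : B => q i] fun _ => 0 :=
      h3.mono fun x hx => hx.2 f (by rintro _ rfl; exact hf)
    have a0 : HasFDerivAt (fun z : σ → ℝ => aeval z f) (fderiv ℝ (fun z : σ → ℝ => aeval z f) q)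
        (Γ fun i => q i) := by rw [h2]; exact (gs_an f q).differentiableAt.hasFDerivAt
    have a1 := (a0.comp _ hd).congr_of_eventuallyEq e.symm
    exact congrArg (fun L : (B → ℝ) →L[ℝ] ℝ => L fun i => c i)
      (a1.unique (hasFDerivAt_const (0 : ℝ) _))

/-- Generic points of the Zariski closure of an arbitrary set `S ⊆ Y`, `Y` open in its Zariski closure.  The minimal
primes `𝔭` of `IS S` have `S ∩ ZS 𝔭` Zariski dense in `ZS 𝔭`; take `z ∈ S ∩ ZS 𝔭` with `g z ≠ 0` (`gen_smooth`) and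
`q = Γ x` with `x` algebraically independent near `z_B`; then `IS {q} = 𝔭` and `q ∈ Y`. -/
theorem generic_points [Countable 𝕜] {S Y : Set (σ → ℝ)} (hS : S ⊆ Y)
    (hY : ∀ z ∈ Y, ∀ᶠ q in 𝓝 z, q ∈ ZS (IS 𝕜 Y) → q ∈ Y) :
    ∃ Q : Set (σ → ℝ), Q.Finite ∧ Q ⊆ Y ∧ S ⊆ (⋃ q ∈ Q, ZS (IS 𝕜 {q})) ∧
      ∀ q ∈ Q, ∀ P : MvPolynomial σ 𝕜, aeval q P ≠ 0 → ∃ z ∈ S, z ∈ ZS (IS 𝕜 {q}) ∧ aeval z P ≠ 0 := by
  let kr : (σ → ℝ) → Ideal (MvPolynomial σ 𝕜) := fun z =>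
    RingHom.ker (aeval z : MvPolynomial σ 𝕜 →ₐ[𝕜] ℝ)
  have hk : ∀ z, (kr z).IsPrime := fun z => RingHom.ker_isPrime _
  have hZ : ∀ q z : σ → ℝ, z ∈ ZS (IS 𝕜 {q}) ↔ kr q ≤ kr z := fun q z => by
    simp [ZS, IS, kr, SetLike.le_def, RingHom.mem_ker]
  let J : Ideal (MvPolynomial σ 𝕜) := ⨅ z ∈ S, kr z
  have hJ : ∀ z ∈ S, J ≤ kr z := fun z hz => iInf₂_le z hz
  have hdense : ∀ 𝔭 ∈ J.minimalPrimes, ∀ P, P ∉ 𝔭 → ∃ z ∈ S, 𝔭 ≤ kr z ∧ P ∉ kr z := by
    intro 𝔭 h𝔭 P hP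
    obtain ⟨P', h1, h2⟩ := gs_sep (I := J) h𝔭.1.1 fun 𝔮 hq hI hle => h𝔭.2 ⟨hq, hI⟩ hle
    by_contra hn
    push Not at hn
    have : P * P' ∈ J := by
      simp only [J, Ideal.mem_iInf]
      intro z hz
      by_cases c : P' ∈ kr z
      · exact Ideal.mul_mem_left _ _ c
      · exact Ideal.mul_mem_right _ _ (hn z hz (h2 _ (hk z) (hJ z hz) c))
    exact (h𝔭.1.1.mem_or_mem (h𝔭.1.2 this)).elim hP h1
  have hgen : ∀ 𝔭 ∈ J.minimalPrimes, ∃ q ∈ Y, kr q = 𝔭 := by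
    intro 𝔭 h𝔭
    obtain ⟨B, hB, hA⟩ := exists_prime_basis h𝔭.1.1
    obtain ⟨hdv, g, hg, h⟩ := gen_smooth (𝕃 := ℝ) h𝔭.1.1 B hB hA
    obtain ⟨z, hz, h1, h2⟩ := hdense 𝔭 h𝔭 g hg
    obtain ⟨Γ, a1, a2, a3, -⟩ := h z (fun f hf => h1 hf) h2
    have ht : Tendsto Γ (𝓝 fun i : B => z i) (𝓝 z) := by
      have := a1.continuousAt
      rwa [ContinuousAt, a2] at this
    obtain ⟨x, hx1, ⟨hx2, hx3⟩, hx4⟩ := (dense_indep (𝕜 := 𝕜) (σ := B)).inter_nhds_nonempty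
      (a3.and (ht.eventually (hY z (hS hz))))
    refine ⟨Γ x, hx4 fun f hf => hx3 f (h𝔭.1.2 ?_), le_antisymm (fun f hf => ?_) hx3⟩
    · simp only [J, Ideal.mem_iInf]
      exact fun w hw => hf w (hS hw)
    · by_contra hn
      obtain ⟨r, r0, hr⟩ := hdv f hn
      have h3 : rename Subtype.val r ∈ kr (Γ x) :=
        sup_le (show 𝔭 ≤ kr (Γ x) from hx3) ((Ideal.span_singleton_le_iff_mem _).2 hf) hr
      rw [RingHom.mem_ker, aeval_rename, show Γ x ∘ Subtype.val = x from funext hx2] at h3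
      exact r0 (algebraicIndependent_iff.1 hx1 r h3)
  choose! q hqY hq using hgen
  refine ⟨q '' J.minimalPrimes, (J.finite_minimalPrimes_of_isNoetherianRing _).image _, ?_,
    fun z hz => ?_, ?_⟩
  · rintro _ ⟨𝔭, h𝔭, rfl⟩
    exact hqY 𝔭 h𝔭
  · have := hk z
    obtain ⟨𝔭, h1, h2⟩ := Ideal.exists_minimalPrimes_le (hJ z hz)
    exact mem_biUnion (mem_image_of_mem q h1) ((hZ _ _).2 ((hq 𝔭 h1).symm ▸ h2))
  · rintro _ ⟨𝔭, h𝔭, rfl⟩ P hP
    obtain ⟨z, hz, h1, h2⟩ := hdense 𝔭 h𝔭 P (by rw [← hq 𝔭 h𝔭]; exact hP)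
    exact ⟨z, hz, (hZ _ _).2 ((hq 𝔭 h𝔭).symm ▸ h1), h2⟩

theorem gs_alg_biUnion {ι : Type} {Q : Set ι} (hQ : Q.Finite) (q : ι → σ → ℝ) :
    IsAlg 𝕜 (⋃ i ∈ Q, ZS (IS 𝕜 {q i})) := by
  induction Q, hQ using Set.Finite.induction_on with
  | empty => exact ⟨{1}, by ext z; simp [ZS]⟩
  | insert _ _ ih => rw [biUnion_insert]; exact IsAlg.union ⟨_, rfl⟩ ih

theorem gs_open {C : Set (σ → ℝ)} (hC : IsAlg 𝕜 C) :
    ∀ z ∈ C, ∀ᶠ q in 𝓝 z, q ∈ ZS (IS 𝕜 C) → q ∈ C := by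
  obtain ⟨J, rfl⟩ := hC
  exact fun z _ => Eventually.of_forall fun q hq f hf => hq f fun w hw => hw f hf

/-- Lemma G: a property which spreads from the points of maximal `td` holds outside an algebraic set of smaller
dimension (apply `generic_points` to the set where it fails).  Dimensions are written additively: `c + td ≤ D`. -/
theorem lemma_G [Countable 𝕜] {Y : Set (σ → ℝ)} (hY : ∀ z ∈ Y, ∀ᶠ q in 𝓝 z, q ∈ ZS (IS 𝕜 Y) → q ∈ Y) {c D : ℕ}
    {Pr : (σ → ℝ) → Prop} (h : ∀ q ∈ Y, D ≤ td 𝕜 q + c → ∃ P : MvPolynomial σ 𝕜, aeval q P ≠ 0 ∧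
      ∀ z ∈ Y, z ∈ ZS (IS 𝕜 {q}) → aeval z P ≠ 0 → Pr z) :
    ∃ C, IsAlg 𝕜 C ∧ (∀ z ∈ C, td 𝕜 z + c + 1 ≤ D) ∧ ∀ z ∈ Y, z ∉ C → Pr z := by
  obtain ⟨Q, h1, h2, h3, h4⟩ := generic_points (𝕜 := 𝕜) (S := {z | z ∈ Y ∧ ¬ Pr z}) (fun z hz => hz.1) hY
  refine ⟨_, gs_alg_biUnion h1 id, fun z hz => ?_, fun z hz hn => by_contra fun hp => hn (h3 ⟨hz, hp⟩)⟩
  obtain ⟨q, hq, hz⟩ := mem_iUnion₂.1 hz
  have a1 : td 𝕜 z ≤ td 𝕜 q := td_le_of_spec hz
  by_contra hn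
  obtain ⟨P, hP, hP'⟩ := h q (h2 hq) (by omega)
  obtain ⟨w, b1, b2, b3⟩ := h4 q hq P hP
  exact b1.2 (hP' w b1.1 b2 b3)

/-- coordinate projections of algebraic sets -/
theorem proj_alg [Countable 𝕜] {C : Set (σ → ℝ)} (hC : IsAlg 𝕜 C) {c D : ℕ} (hd : ∀ z ∈ C, td 𝕜 z + c ≤ D)
    (e : τ → σ) : ∃ C', IsAlg 𝕜 C' ∧ (∀ z ∈ C', td 𝕜 z + c ≤ D) ∧ ∀ z ∈ C, z ∘ e ∈ C' := by
  obtain ⟨Q, h1, h2, h3, -⟩ := generic_points (𝕜 := 𝕜) (subset_refl C) (gs_open hC)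
  refine ⟨_, gs_alg_biUnion h1 fun q => q ∘ e, fun z hz => ?_, fun z hz => ?_⟩
  · obtain ⟨q, hq, hz⟩ := mem_iUnion₂.1 hz
    have a1 : td 𝕜 z ≤ td 𝕜 (q ∘ e) := td_le_of_spec hz
    have a2 : td 𝕜 (q ∘ e) ≤ td 𝕜 q := td_comp_le q e
    have a3 := hd q (h2 hq)
    omega
  · obtain ⟨q, hq, hz⟩ := mem_iUnion₂.1 (h3 hz)
    refine mem_biUnion hq fun f hf => ?_
    rw [← aeval_rename]
    refine hz _ ?_
    rintro _ rfl
    rw [aeval_rename]
    exact hf _ rfl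

theorem exists_poly_of_dim [Countable 𝕜] {C : Set (σ → ℝ)} (hC : IsAlg 𝕜 C)
    (hd : ∀ z ∈ C, td 𝕜 z + 1 ≤ Fintype.card σ) : ∃ f : MvPolynomial σ 𝕜, f ≠ 0 ∧ ∀ z ∈ C, aeval z f = 0 := by
  obtain ⟨Q, h1, h2, h3, -⟩ := generic_points (𝕜 := 𝕜) (subset_refl C) (gs_open hC)
  have : ∀ q ∈ Q, ∃ f : MvPolynomial σ 𝕜, f ≠ 0 ∧ aeval q f = 0 := by
    intro q hq
    by_contra hn
    have a1 : AlgebraicIndependent 𝕜 q := algebraicIndependent_iff.2 fun f hf =>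
      by_contra fun h0 => hn ⟨f, h0, hf⟩
    have a2 := card_le_td (S := Finset.univ) (a1.comp _ Subtype.val_injective)
    have a3 := hd q (h2 hq)
    rw [Finset.card_univ] at a2
    omega
  choose! f f0 f1 using this
  refine ⟨∏ q ∈ h1.toFinset, f q, Finset.prod_ne_zero_iff.2 fun q hq => f0 q (h1.mem_toFinset.1 hq),
    fun z hz => ?_⟩
  obtain ⟨q, hq, hz⟩ := mem_iUnion₂.1 (h3 hz)
  rw [map_prod]
  exact Finset.prod_eq_zero (h1.mem_toFinset.2 hq) (hz _ (by rintro _ rfl; exact f1 _ hq))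

/-- a real hypersurface at a point of maximal `td`: `R₀` is an irreducible factor of `R`, `IS {q} = (R₀)` -/
theorem hyp_generic {R : MvPolynomial σ 𝕜} (hR : R ≠ 0) {q : σ → ℝ} (h0 : aeval q R = 0)
    (hq : Fintype.card σ ≤ td 𝕜 q + 1) : ∃ R₀ P : MvPolynomial σ 𝕜, aeval q R₀ = 0 ∧ R₀ ∣ R ∧
      (∀ f : MvPolynomial σ 𝕜, aeval q f = 0 → R₀ ∣ f) ∧ aeval q P ≠ 0 ∧
      (∀ i, (AlgebraicIndependent 𝕜 fun j : {j // j ≠ i} => q j) → aeval q (pderiv i R₀) ≠ 0) ∧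
      ∀ z : σ → ℝ, aeval z P ≠ 0 → (aeval z R = 0 ↔ aeval z R₀ = 0) ∧ ∃ i, aeval z (pderiv i R₀) ≠ 0 := by
  obtain ⟨R₀, hp, hdv, h1⟩ : ∃ R₀ : MvPolynomial σ 𝕜, Prime R₀ ∧ R₀ ∣ R ∧ aeval q R₀ = 0 := by
    obtain ⟨s, hs, u, hu⟩ := UniqueFactorizationMonoid.exists_prime_factors R hR
    rw [← hu, map_mul, mul_eq_zero, map_multiset_prod] at h0
    rcases h0 with h0 | h0
    · obtain ⟨r, hr, h1⟩ := Multiset.mem_map.1 (Multiset.prod_eq_zero_iff.1 h0)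
      exact ⟨r, hs r hr, hu ▸ (Multiset.dvd_prod hr).mul_right _, h1⟩
    · exact absurd h0 (u.isUnit.map _).ne_zero
  obtain ⟨B, -, -, hc, hB, -⟩ := exists_basis 𝕜 q (empty_subset univ)
    (algebraicIndependent_empty_type_iff.2 (algebraMap 𝕜 ℝ).injective) fun j =>
    isAlgebraic_algebraMap (⟨q j, Algebra.subset_adjoin ⟨j, trivial, rfl⟩⟩ : Algebra.adjoin 𝕜 (q '' univ))
  obtain ⟨j₀, hj₀⟩ : ∃ j₀, Bᶜ = {j₀} := by
    have := td_lt_card hR h0
    rw [← Finset.card_eq_one, Finset.card_compl]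
    omega
  have hBj : ∀ i, i ∈ B ↔ i ≠ j₀ := fun i => by
    rw [Ne, ← Finset.mem_singleton, ← hj₀, Finset.mem_compl, not_not]
  have hgen : ∀ f : MvPolynomial σ 𝕜, aeval q f = 0 → R₀ ∣ f := by
    intro f hf
    refine Ideal.mem_span_singleton.1 (gs_eq (𝔭 := RingHom.ker (aeval q : MvPolynomial σ 𝕜 →ₐ[𝕜] ℝ))
      ((Ideal.span_singleton_prime hp.ne_zero).2 hp) ((Ideal.span_singleton_le_iff_mem _).2 h1) (· ∈ B)
      (fun h hh => algebraicIndependent_iff.1 hB h (by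
        rw [RingHom.mem_ker, aeval_rename] at hh; exact hh)) (fun j => ?_) hf)
    by_cases hj : j ∈ B
    · obtain ⟨g, g0, g1⟩ := gs_triv (K := 𝕜) (p := (· ∈ B)) hj
      exact ⟨g, g0, g1 ▸ Ideal.zero_mem _⟩
    · obtain rfl : j = j₀ := not_not.1 fun h => hj ((hBj j).2 h)
      obtain ⟨g, hg⟩ := (gsE_bij (K := 𝕜) hBj).2 R₀
      exact ⟨g, fun h => hp.ne_zero (by rw [← hg, h, map_zero]), hg ▸ Ideal.mem_span_singleton_self _⟩
  have hsep : ∀ i, (AlgebraicIndependent 𝕜 fun j : {j // j ≠ i} => q j) → aeval q (pderiv i R₀) ≠ 0 := by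
    intro i hi hz
    have hb := gsE_bij (K := 𝕜) (p := (· ≠ i)) (j := i) fun _ => Iff.rfl
    obtain ⟨g, rfl⟩ := hb.2 R₀
    obtain ⟨c, hc⟩ := hgen _ hz
    obtain ⟨c, rfl⟩ := hb.2 c
    rw [gs_pd_E (p := (· ≠ i)) (i := i) (not_not.2 rfl), pderiv_X_self, mul_one, ← map_mul] at hc
    have hd : g ∣ g.derivative := ⟨c, hb.1 hc⟩
    have g0 : g.natDegree = 0 := by
      by_contra hn
      exact absurd (Polynomial.natDegree_le_of_dvd hd fun h => hn (Polynomial.derivative_eq_zero.1 h))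
        (not_le.2 (Polynomial.natDegree_derivative_lt hn))
    rw [Polynomial.eq_C_of_natDegree_eq_zero g0, gsE_C] at h1 hp
    rw [aeval_rename] at h1
    exact hp.ne_zero (by rw [algebraicIndependent_iff.1 hi _ h1, map_zero])
  have hj : aeval q (pderiv j₀ R₀) ≠ 0 := hsep j₀
    (hB.comp (fun j : {j // j ≠ j₀} => (⟨j.1, (hBj _).2 j.2⟩ : B))
      fun a b h => Subtype.ext (congrArg (fun x : B => (x : σ)) h))
  obtain ⟨m, R₁, hn, hR₁⟩ := WfDvdMonoid.max_power_factor hR hp.irreducible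
  have hm : m ≠ 0 := by
    rintro rfl
    rw [pow_zero, one_mul] at hR₁
    exact hn (hR₁ ▸ hdv)
  refine ⟨R₀, R₁ * pderiv j₀ R₀, h1, hdv, hgen, ?_, hsep, fun z hz => ?_⟩
  · rw [map_mul]
    exact mul_ne_zero (fun h => hn (hgen _ h)) hj
  · rw [map_mul, mul_ne_zero_iff] at hz
    refine ⟨?_, j₀, hz.2⟩
    rw [hR₁, map_mul, map_pow, mul_eq_zero, pow_eq_zero_iff hm, or_iff_left hz.1]

/-- a hypersurface is smooth outside an algebraic set of codimension two -/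
theorem hyp_smooth [Countable 𝕜] {R : MvPolynomial σ 𝕜} (hR : R ≠ 0) :
    ∃ C, IsAlg 𝕜 C ∧ (∀ z ∈ C, td 𝕜 z + 2 ≤ Fintype.card σ) ∧ ∀ z, z ∉ C → aeval z R = 0 →
      ∃ r : (σ → ℝ) → ℝ, AnalyticAt ℝ r z ∧ fderiv ℝ r z ≠ 0 ∧ ∀ᶠ z' in 𝓝 z, (aeval z' R = 0 ↔ r z' = 0) := by
  obtain ⟨C, h1, h2, h3⟩ := lemma_G (𝕜 := 𝕜) (Y := ZS {R}) (gs_open ⟨_, rfl⟩) (c := 1)
    (D := Fintype.card σ) (Pr := fun z => ∃ r : (σ → ℝ) → ℝ, AnalyticAt ℝ r z ∧ fderiv ℝ r z ≠ 0 ∧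
      ∀ᶠ z' in 𝓝 z, (aeval z' R = 0 ↔ r z' = 0)) fun q hq hd => by
    obtain ⟨R₀, P, -, -, -, a1, -, a2⟩ := hyp_generic hR (hq R rfl) hd
    refine ⟨P, a1, fun z _ _ hz => ⟨fun w => aeval w R₀, gs_an R₀ z, fun h0 => ?_, ?_⟩⟩
    · obtain ⟨i, hi⟩ := (a2 z hz).2
      have := gs_fd R₀ z (Pi.single i 1)
      rw [h0, Finset.sum_eq_single i (fun j _ hj => by simp [hj]) (by simp)] at this
      exact hi (by simpa using this.symm)
    · exact ((gs_an P z).continuousAt.eventually_ne hz).mono fun w hw => (a2 w hw).1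
  exact ⟨C, h1, h2, fun z hz h0 => h3 z (by rintro _ rfl; exact h0) hz⟩

/-- generic points on a smooth hypersurface contained in `{R = 0}` -/
theorem exists_generic_on [Countable 𝕜] {r : (σ → ℝ) → ℝ} {z : σ → ℝ} (hr : AnalyticAt ℝ r z) (h0 : r z = 0)
    (hd : fderiv ℝ r z ≠ 0) : ∃ᶠ q in 𝓝 z, r q = 0 ∧ Fintype.card σ ≤ td 𝕜 q + 1 := by
  obtain ⟨i, hi⟩ : ∃ i, fderiv ℝ r z (Pi.single i 1) ≠ 0 := by
    by_contra hn
    push Not at hn
    refine hd (ContinuousLinearMap.coe_injective (LinearMap.pi_ext fun i x => ?_))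
    have : (Pi.single i x : σ → ℝ) = x • Pi.single i 1 := by
      rw [← Pi.single_smul, smul_eq_mul, mul_one]
    simp [this, hn]
  have hB : ∀ j, j ∉ Finset.univ.erase i ↔ j = i := fun j => by simp
  obtain ⟨Γ, a1, a2, a3, -⟩ := gs_graph (Finset.univ.erase i) (G := fun _ => r) (z := z)
    (fun _ _ => hr) (fun _ _ => h0) fun v h1 h2 => by
      have e : v = v i • (Pi.single i 1 : σ → ℝ) := by
        funext j
        by_cases c : j = i
        · simp [c]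
        · simp [c, h1 j (by simp [c])]
      have h3 := h2 i ((hB i).2 rfl)
      rw [e, map_smul, smul_eq_mul, mul_eq_zero, or_iff_left hi] at h3
      rw [e, h3, zero_smul]
  have ht : Tendsto Γ (𝓝 fun j : Finset.univ.erase i => z j) (𝓝 z) := by
    have := a1.continuousAt
    rwa [ContinuousAt, a2] at this
  refine ht.frequently (((mem_closure_iff_frequently.1
    (dense_indep (𝕜 := 𝕜) (σ := Finset.univ.erase i) _)).and_eventually a3).mono fun x hx => ?_)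
  refine ⟨hx.2.2 i ((hB i).2 rfl), ?_⟩
  have h1 := card_le_td (𝕜 := 𝕜) (q := Γ x) (S := Finset.univ.erase i)
    (by rw [show (fun j : Finset.univ.erase i => Γ x j) = x from funext hx.2.1]; exact hx.1)
  rw [Finset.card_erase_of_mem (Finset.mem_univ i), Finset.card_univ] at h1
  omega

end Crest.Agent.R264
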