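import Crest.Agent.R264.Alg.Td

/-! Helpers for `Alg/GS.lean`: commutative algebra and the analytic graph lemma. -/

set_option autoImplicit false
set_option linter.unusedSectionVars false
open Set Filter Topology MvPolynomial

namespace Crest.Agent.R264

variable {σ : Type} [Fintype σ] [DecidableEq σ] {K : Type} [Field K]

theorem gs_der {A M : Type} [CommRing A] [Algebra K A] [AddCommGroup M] [Module A M] [Module K M]
    (D : Derivation K A M) (x : σ → A) (f : MvPolynomial σ K) :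
    D (aeval x f) = ∑ i, aeval x (pderiv i f) • D (x i) := by
  induction f using MvPolynomial.induction_on with
  | C a => simp
  | add f g hf hg => simp only [map_add, hf, hg, add_smul, Finset.sum_add_distrib]
  | mul_X f j hf =>
    simp only [map_mul, aeval_X, Derivation.leibniz, hf, smul_eq_mul, map_add, add_smul,
      Finset.sum_add_distrib, Finset.smul_sum, smul_smul]
    congr 1
    rw [Finset.sum_eq_single j (fun i _ hi => by simp [pderiv_X_of_ne (Ne.symm hi)]) (by simp)]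
    simp

/-- polynomials in `X j` with coefficients in the variables satisfying `p` -/
noncomputable def gsE (K : Type) [Field K] (p : σ → Prop) (j : σ) :
    Polynomial (MvPolynomial {i // p i} K) →+* MvPolynomial σ K :=
  Polynomial.eval₂RingHom
    (rename Subtype.val : MvPolynomial {i // p i} K →ₐ[K] MvPolynomial σ K).toRingHom (X j)

theorem gsE_C (p : σ → Prop) (j : σ) (h : MvPolynomial {i // p i} K) :
    gsE K p j (Polynomial.C h) = rename Subtype.val h := by simp [gsE]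

theorem gsE_X (p : σ → Prop) (j : σ) : gsE K p j Polynomial.X = X j := by simp [gsE]

theorem gs_pd_rename {p : σ → Prop} {i : σ} (hi : ¬ p i) (h : MvPolynomial {i // p i} K) :
    pderiv i (rename Subtype.val h) = 0 := by
  induction h using MvPolynomial.induction_on with
  | C a => simp
  | add f g hf hg => simp only [map_add, hf, hg, add_zero]
  | mul_X f j hf =>
    have : (j : σ) ≠ i := fun e => hi (e ▸ j.2)
    simp [hf, pderiv_X_of_ne this]

theorem gs_pd_E {p : σ → Prop} {i : σ} (hi : ¬ p i) (j : σ)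
    (f : Polynomial (MvPolynomial {i // p i} K)) :
    pderiv i (gsE K p j f) = gsE K p j f.derivative * pderiv i (X j) := by
  induction f using Polynomial.induction_on' with
  | add f g hf hg => simp only [map_add, hf, hg, add_mul]
  | monomial n a =>
    rw [← Polynomial.C_mul_X_pow_eq_monomial]
    simp only [map_mul, map_pow, gsE_C, gsE_X, pderiv_mul, gs_pd_rename hi, pderiv_pow,
      Polynomial.derivative_C_mul, Polynomial.derivative_X_pow, map_natCast]
    ring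

theorem gsE_bij {p : σ → Prop} {j : σ} (h : ∀ i, p i ↔ i ≠ j) : Function.Bijective (gsE K p j) := by
  let e : Option {i // p i} ≃ σ :=
    (Equiv.optionCongr (Equiv.subtypeEquivRight h)).trans (Equiv.optionSubtypeNe j)
  have h1 : (gsE K p j).comp (optionEquivLeft K {i // p i}).toRingEquiv.toRingHom =
      (renameEquiv K e).toRingEquiv.toRingHom := by
    refine MvPolynomial.ringHom_ext (fun a => ?_) fun o => ?_
    · simp [gsE_C]
    · cases o with
      | none => simp [optionEquivLeft_X_none, gsE_X, e]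
      | some s => simp [optionEquivLeft_X_some, gsE_C, e]
  have h2 : Function.Bijective ((gsE K p j) ∘ (optionEquivLeft K {i // p i})) := by
    have := (renameEquiv K e).bijective
    rwa [show ⇑(renameEquiv K e) = (gsE K p j) ∘ (optionEquivLeft K {i // p i}) from
      (congrArg DFunLike.coe h1).symm] at this
  exact (Function.Bijective.of_comp_iff _ (optionEquivLeft K {i // p i}).bijective).1 h2

theorem gs_triv {p : σ → Prop} {j : σ} (hj : p j) :
    ∃ f : Polynomial (MvPolynomial {i // p i} K), f ≠ 0 ∧ gsE K p j f = 0 :=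
  ⟨Polynomial.X - Polynomial.C (X ⟨j, hj⟩), Polynomial.X_sub_C_ne_zero _, by
    simp [gsE_C, gsE_X]⟩

theorem gs_poly {A : Type} [CommRing A] [Algebra K A] (x : σ → A) (p : σ → Prop) (j : σ)
    (h : IsAlgebraic (Algebra.adjoin K (x '' {i | p i})) (x j)) :
    ∃ f : Polynomial (MvPolynomial {i // p i} K), f ≠ 0 ∧ aeval x (gsE K p j f) = 0 := by
  obtain ⟨q, hq0, hq⟩ := h
  have hr : Algebra.adjoin K (x '' {i | p i}) =
      (aeval fun i : {i // p i} => x i : MvPolynomial {i // p i} K →ₐ[K] A).range := by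
    rw [← Algebra.adjoin_range_eq_range_aeval, image_eq_range]; rfl
  let ψ : MvPolynomial {i // p i} K →+* Algebra.adjoin K (x '' {i | p i}) :=
    ((aeval fun i : {i // p i} => x i).codRestrict _ fun h => hr ▸ ⟨h, rfl⟩).toRingHom
  have hψ : Function.Surjective ψ := fun a => by
    obtain ⟨h, hh⟩ : (a : A) ∈ (aeval fun i : {i // p i} => x i :
      MvPolynomial {i // p i} K →ₐ[K] A).range := hr ▸ a.2
    exact ⟨h, Subtype.ext hh⟩
  obtain ⟨f, rfl⟩ := Polynomial.map_surjective ψ hψ q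
  refine ⟨f, fun h0 => hq0 (by rw [h0, Polynomial.map_zero]), ?_⟩
  rw [Polynomial.aeval_def, Polynomial.eval₂_map] at hq
  refine Eq.trans ?_ hq
  refine (Polynomial.hom_eval₂ f _ (aeval x : MvPolynomial σ K →ₐ[K] A).toRingHom (X j)).trans ?_
  congr 1
  · refine RingHom.ext fun h => ?_
    exact aeval_rename _ _ _
  · simp

theorem gs_dvd {𝔭 : Ideal (MvPolynomial σ K)} (hp : 𝔭.IsPrime) (p : σ → Prop)
    (hA : ∀ j, ∃ f : Polynomial (MvPolynomial {i // p i} K), f ≠ 0 ∧ gsE K p j f ∈ 𝔭)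
    {f : MvPolynomial σ K} (hf : f ∉ 𝔭) :
    ∃ h : MvPolynomial {i // p i} K, h ≠ 0 ∧ rename Subtype.val h ∈ 𝔭 ⊔ Ideal.span {f} := by
  let φ : MvPolynomial {i // p i} K →+* MvPolynomial σ K ⧸ 𝔭 := (Ideal.Quotient.mk 𝔭).comp
    (rename Subtype.val : MvPolynomial {i // p i} K →ₐ[K] MvPolynomial σ K).toRingHom
  let _ : Algebra (MvPolynomial {i // p i} K) (MvPolynomial σ K ⧸ 𝔭) := φ.toAlgebra
  have halg : ∀ g : MvPolynomial σ K,
      IsAlgebraic (MvPolynomial {i // p i} K) (Ideal.Quotient.mk 𝔭 g) := by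
    intro g
    induction g using MvPolynomial.induction_on with
    | C a =>
      have : Ideal.Quotient.mk 𝔭 (C a) = algebraMap (MvPolynomial {i // p i} K) _ (C a) := by
        change _ = Ideal.Quotient.mk 𝔭 (rename Subtype.val (C a))
        rw [rename_C]
      rw [this]
      exact isAlgebraic_algebraMap _
    | add f g hf hg => rw [map_add]; exact hf.add hg
    | mul_X f j hf =>
      rw [map_mul]
      refine hf.mul ?_
      obtain ⟨q, hq0, hq⟩ := hA j
      refine ⟨q, hq0, ?_⟩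
      rw [← Ideal.Quotient.eq_zero_iff_mem] at hq
      exact Eq.trans (Polynomial.hom_eval₂ q _ (Ideal.Quotient.mk 𝔭) (X j)).symm hq
  obtain ⟨h, h0, c, hc⟩ := (halg f).exists_nonzero_dvd
    (mem_nonZeroDivisors_of_ne_zero (by rwa [Ne, Ideal.Quotient.eq_zero_iff_mem]))
  obtain ⟨c, rfl⟩ := Ideal.Quotient.mk_surjective c
  refine ⟨h, h0, ?_⟩
  have h1 : rename Subtype.val h - f * c ∈ 𝔭 := by
    rw [← Ideal.Quotient.eq, map_mul]; exact hc
  have h2 := Ideal.add_mem _ (Ideal.mem_sup_left (T := Ideal.span {f}) h1)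
    (Ideal.mem_sup_right (S := 𝔭) (Ideal.mul_mem_right c _ (Ideal.mem_span_singleton_self f)))
  rwa [sub_add_cancel] at h2

/-- a smaller prime with the same transcendence basis is equal -/
theorem gs_eq {𝔮 𝔭 : Ideal (MvPolynomial σ K)} (hq : 𝔮.IsPrime) (hle : 𝔮 ≤ 𝔭) (p : σ → Prop)
    (hB : ∀ h : MvPolynomial {i // p i} K, rename Subtype.val h ∈ 𝔭 → h = 0)
    (hA : ∀ j, ∃ f : Polynomial (MvPolynomial {i // p i} K), f ≠ 0 ∧ gsE K p j f ∈ 𝔮) : 𝔭 ≤ 𝔮 := by
  intro f hf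
  by_contra hn
  obtain ⟨h, h0, hh⟩ := gs_dvd hq p hA hn
  exact h0 (hB h (sup_le hle ((Ideal.span_singleton_le_iff_mem _).2 hf) hh))

theorem gs_sep {R : Type} [CommRing R] [IsNoetherianRing R] {I 𝔭 : Ideal R} (hp : 𝔭.IsPrime)
    (h : ∀ 𝔮 : Ideal R, 𝔮.IsPrime → I ≤ 𝔮 → 𝔮 ≤ 𝔭 → 𝔭 ≤ 𝔮) :
    ∃ P, P ∉ 𝔭 ∧ ∀ 𝔯 : Ideal R, 𝔯.IsPrime → I ≤ 𝔯 → P ∉ 𝔯 → 𝔭 ≤ 𝔯 := by
  classical
  have hc : ∀ 𝔮 ∈ I.minimalPrimes, ∃ a, a ∉ 𝔭 ∧ (𝔭 ≤ 𝔮 ∨ a ∈ 𝔮) := by
    intro 𝔮 h𝔮
    by_cases c : 𝔮 ≤ 𝔭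
    · exact ⟨1, (Ideal.ne_top_iff_one _).1 hp.ne_top, Or.inl (h 𝔮 h𝔮.1.1 h𝔮.1.2 c)⟩
    · obtain ⟨a, h1, h2⟩ := Set.not_subset.1 c
      exact ⟨a, h2, Or.inr h1⟩
  choose! a ha1 ha2 using hc
  have hf := I.finite_minimalPrimes_of_isNoetherianRing R
  refine ⟨∏ 𝔮 ∈ hf.toFinset, a 𝔮, fun hm => ?_, fun 𝔯 hr hI hP => ?_⟩
  · obtain ⟨𝔮, h1, h2⟩ := (Ideal.IsPrime.prod_mem_iff (hp := hp)).1 hm
    exact ha1 𝔮 (hf.mem_toFinset.1 h1) h2
  · obtain ⟨𝔮, h1, h2⟩ := Ideal.exists_minimalPrimes_le hI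
    rcases ha2 𝔮 h1 with h3 | h3
    · exact h3.trans h2
    · exact absurd (Ideal.mem_of_dvd _ (Finset.dvd_prod_of_mem a (hf.mem_toFinset.2 h1)) (h2 h3)) hP

/-- an equation of minimal degree is separable modulo `𝔭` -/
theorem gs_min [CharZero K] {𝔭 : Ideal (MvPolynomial σ K)} {p : σ → Prop} {j : σ}
    (hB : ∀ h : MvPolynomial {i // p i} K, rename Subtype.val h ∈ 𝔭 → h = 0)
    (hA : ∃ f : Polynomial (MvPolynomial {i // p i} K), f ≠ 0 ∧ gsE K p j f ∈ 𝔭) :
    ∃ f : Polynomial (MvPolynomial {i // p i} K), f ≠ 0 ∧ gsE K p j f ∈ 𝔭 ∧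
      gsE K p j f.derivative ∉ 𝔭 := by
  obtain ⟨f, hf, hm⟩ := (measure Polynomial.natDegree).wf.has_min
    {f : Polynomial (MvPolynomial {i // p i} K) | f ≠ 0 ∧ gsE K p j f ∈ 𝔭} hA
  refine ⟨f, hf.1, hf.2, fun hd => ?_⟩
  have h0 : f.natDegree ≠ 0 := fun h0 => by
    have h1 := hf.2
    rw [Polynomial.eq_C_of_natDegree_eq_zero h0, gsE_C] at h1
    exact hf.1 (by rw [Polynomial.eq_C_of_natDegree_eq_zero h0, hB _ h1, map_zero])
  exact hm f.derivative ⟨fun h => h0 (Polynomial.derivative_eq_zero.1 h), hd⟩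
    (Polynomial.natDegree_derivative_lt h0)

section Ana
variable {𝕃 : Type} [RCLike 𝕃]

theorem gs_an [Algebra K 𝕃] (f : MvPolynomial σ K) (z : σ → 𝕃) :
    AnalyticAt 𝕃 (fun z : σ → 𝕃 => aeval z f) z :=
  AnalyticAt.aeval_mvPolynomial (f := fun z : σ → 𝕃 => z)
    (fun i => (ContinuousLinearMap.proj (R := 𝕃) (φ := fun _ : σ => 𝕃) i).analyticAt z) f

theorem gs_fd [Algebra K 𝕃] (f : MvPolynomial σ K) (z v : σ → 𝕃) :
    fderiv 𝕃 (fun z : σ → 𝕃 => aeval z f) z v = ∑ i, aeval z (pderiv i f) * v i := by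
  induction f using MvPolynomial.induction_on with
  | C a => simp
  | add f g hf hg =>
    simp only [map_add, add_mul, Finset.sum_add_distrib, ← hf, ← hg]
    rw [fderiv_fun_add (gs_an f z).differentiableAt (gs_an g z).differentiableAt]
    rfl
  | mul_X f j hf =>
    simp only [map_mul, aeval_X, pderiv_mul, map_add, add_mul, Finset.sum_add_distrib]
    rw [fderiv_fun_mul (gs_an f z).differentiableAt (differentiableAt_apply j z),
      Finset.sum_eq_single j (f := fun i => aeval z f * aeval z (pderiv i (X j)) * v i)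
        (fun i _ hi => by simp [pderiv_X_of_ne (Ne.symm hi)]) (by simp)]
    have e : fderiv 𝕃 (fun z : σ → 𝕃 => z j) z v = v j := by
      rw [(hasFDerivAt_apply j z).fderiv]; rfl
    simp only [add_apply, smul_apply, smul_eq_mul, hf, e, pderiv_X_self, map_one, mul_one,
      Finset.mul_sum]
    rw [add_comm]
    congr 1
    exact Finset.sum_congr rfl fun i _ => by ring

theorem gs_graph (B : Finset σ) {G : σ → (σ → 𝕃) → 𝕃} {z : σ → 𝕃}
    (hG : ∀ j ∉ B, AnalyticAt 𝕃 (G j) z) (h0 : ∀ j ∉ B, G j z = 0)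
    (hd : ∀ v : σ → 𝕃, (∀ i ∈ B, v i = 0) → (∀ j ∉ B, fderiv 𝕃 (G j) z v = 0) → v = 0) :
    ∃ Γ : (B → 𝕃) → σ → 𝕃, AnalyticAt 𝕃 Γ (fun i => z i) ∧ Γ (fun i => z i) = z ∧
      (∀ᶠ x in 𝓝 (fun i : B => z i), (∀ i : B, Γ x i = x i) ∧ ∀ j ∉ B, G j (Γ x) = 0) ∧
      ∀ᶠ z' in 𝓝 z, (∀ j ∉ B, G j z' = 0) → Γ (fun i => z' i) = z' := by
  let Φ : (σ → 𝕃) → σ → 𝕃 := fun y j => if j ∈ B then y j else G j y
  have hΦj : ∀ j, AnalyticAt 𝕃 (fun y => Φ y j) z := fun j => by
    by_cases hj : j ∈ B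
    · simp only [Φ, if_pos hj]
      exact (ContinuousLinearMap.proj (R := 𝕃) (φ := fun _ : σ => 𝕃) j).analyticAt z
    · simp only [Φ, if_neg hj]
      exact hG j hj
  have hΦ : AnalyticAt 𝕃 Φ z := AnalyticAt.pi hΦj
  have hinj : Function.Injective (fderiv 𝕃 Φ z) := by
    refine (injective_iff_map_eq_zero _).2 fun v hv => ?_
    have hj : ∀ j, fderiv 𝕃 (fun y => Φ y j) z v = 0 := fun j => by
      have := congrFun hv j
      rwa [fderiv_pi fun j => (hΦj j).differentiableAt] at this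
    refine hd v (fun i hi => ?_) fun j hj' => ?_
    · have := hj i
      simp only [Φ, if_pos hi] at this
      rwa [(hasFDerivAt_apply i z).fderiv] at this
    · have := hj j
      simpa only [Φ, if_neg hj'] using this
  let e : (σ → 𝕃) ≃L[𝕃] (σ → 𝕃) :=
    (LinearEquiv.ofInjectiveEndo (fderiv 𝕃 Φ z).toLinearMap hinj).toContinuousLinearEquiv
  have he : fderiv 𝕃 Φ z = e := by ext v; rfl
  have hs : HasStrictFDerivAt Φ (e : (σ → 𝕃) →L[𝕃] (σ → 𝕃)) z := he ▸ hΦ.hasStrictFDerivAt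
  let ex : (B → 𝕃) → σ → 𝕃 := fun x j => if h : j ∈ B then x ⟨j, h⟩ else 0
  have hex : ∀ x, AnalyticAt 𝕃 ex x := fun x => AnalyticAt.pi fun j => by
    by_cases hj : j ∈ B
    · simp only [dif_pos hj]
      exact (ContinuousLinearMap.proj (R := 𝕃) (φ := fun _ : B => 𝕃) ⟨j, hj⟩).analyticAt x
    · simp only [dif_neg hj]
      exact analyticAt_const
  have hez : ∀ y : σ → 𝕃, (∀ j ∉ B, G j y = 0) → ex (fun i => y i) = Φ y := fun y hy => by
    funext j
    by_cases hj : j ∈ B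
    · simp only [ex, Φ, dif_pos hj, if_pos hj]
    · simp only [ex, Φ, dif_neg hj, if_neg hj, hy j hj]
  have hinv : AnalyticAt 𝕃 (hs.localInverse Φ e z) (Φ z) :=
    (hs.toOpenPartialHomeomorph Φ).analyticAt_symm' hs.mem_toOpenPartialHomeomorph_source hΦ he
  refine ⟨fun x => hs.localInverse Φ e z (ex x), hinv.comp_of_eq (hex _) (hez z h0), ?_, ?_, ?_⟩
  · simp only [hez z h0, hs.localInverse_apply_image]
  · have ht : Tendsto ex (𝓝 fun i : B => z i) (𝓝 (Φ z)) := hez z h0 ▸ (hex _).continuousAt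
    filter_upwards [ht.eventually hs.eventually_right_inverse] with x hx
    refine ⟨fun i => ?_, fun j hj => ?_⟩
    · simpa only [Φ, ex, if_pos i.2, dif_pos i.2] using congrFun hx i
    · simpa only [Φ, ex, if_neg hj, dif_neg hj] using congrFun hx j
  · filter_upwards [hs.eventually_left_inverse] with y hy h
    rw [hez y h, hy]

end Ana

end Crest.Agent.R264
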