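import Crest.Agent.R264.Defs

/-! Transcendence degree of real points; generic points; generic smoothness.  See `Blueprint.lean`, section Alg. -/

set_option autoImplicit false
set_option linter.unusedSectionVars false
open Set Filter Topology MvPolynomial

namespace Crest.Agent.R264

variable {σ τ : Type} [Fintype σ] [Fintype τ] {𝕜 : Subfield ℝ}

theorem tda_mem_closure {s : Set ℝ} {a : ℝ} :
    a ∈ (AlgebraicIndependent.matroid 𝕜 ℝ).closure s ↔ IsAlgebraic (Algebra.adjoin 𝕜 s) a := by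
  rw [AlgebraicIndependent.matroid_closure_eq]
  exact Iff.rfl

theorem tda_adjoin_subset {s t : Set ℝ} (h : t ⊆ (AlgebraicIndependent.matroid 𝕜 ℝ).closure s) :
    (IntermediateField.adjoin 𝕜 t : Set ℝ) ⊆ (AlgebraicIndependent.matroid 𝕜 ℝ).closure s := by
  intro a ha
  rw [tda_mem_closure]
  induction ha using IntermediateField.adjoin_induction with
  | mem x hx => exact tda_mem_closure.1 (h hx)
  | algebraMap x => exact isAlgebraic_algebraMap (algebraMap 𝕜 (Algebra.adjoin 𝕜 s) x)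
  | add x y _ _ hx hy => exact hx.add hy
  | inv x _ hx => exact hx.inv
  | mul x y _ _ hx hy => exact hx.mul hy

theorem tda_trdeg {I s : Set ℝ} (h : (AlgebraicIndependent.matroid 𝕜 ℝ).IsBasis I s) :
    Algebra.trdeg 𝕜 (IntermediateField.adjoin 𝕜 s) = Cardinal.mk I := by
  let K := IntermediateField.adjoin 𝕜 s
  let x : I → K := fun i => ⟨i, IntermediateField.subset_adjoin 𝕜 s (h.subset i.2)⟩
  have hx : IsTranscendenceBasis 𝕜 x := by
    refine ⟨AlgebraicIndependent.of_comp K.val h.indep, fun t ht hxt => ?_⟩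
    have h1 : (AlgebraicIndependent.matroid 𝕜 ℝ).Indep (Subtype.val '' t) :=
      (algebraicIndependent_image Subtype.val_injective.injOn).1
        (ht.map (f := K.val) Subtype.val_injective.injOn)
    have h2 : I = Subtype.val '' t := by
      refine h.indep.isBasis_closure.eq_of_subset_indep h1 (fun i hi => ⟨x ⟨i, hi⟩, hxt ⟨_, rfl⟩, rfl⟩) ?_
      rintro _ ⟨a, -, rfl⟩
      exact tda_adjoin_subset h.subset_closure a.2
    refine hxt.antisymm fun a ha => ?_
    have h3 : (a : ℝ) ∈ I := h2 ▸ ⟨a, ha, rfl⟩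
    exact ⟨⟨a, h3⟩, rfl⟩
  exact hx.cardinalMk_eq_trdeg.symm

theorem tda_lt (𝕜 : Subfield ℝ) {s : Set ℝ} (hs : s.Finite) :
    Algebra.trdeg 𝕜 (IntermediateField.adjoin 𝕜 s) < Cardinal.aleph0 := by
  obtain ⟨I, hI⟩ := (AlgebraicIndependent.matroid 𝕜 ℝ).exists_isBasis s
  rw [tda_trdeg hI]
  exact (hs.subset hI.subset).lt_aleph0

theorem tda_eRk (𝕜 : Subfield ℝ) (q : σ → ℝ) :
    (td 𝕜 q : ℕ∞) = (AlgebraicIndependent.matroid 𝕜 ℝ).eRk (range q) := by
  obtain ⟨I, hI⟩ := (AlgebraicIndependent.matroid 𝕜 ℝ).exists_isBasis (range q)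
  rw [td, tda_trdeg hI, ← hI.encard_eq_eRk, ← ((finite_range q).subset hI.subset).cast_ncard_eq]
  rfl

theorem tda_alg_mono {𝕜' : Subfield ℝ} (h : 𝕜 ≤ 𝕜') {s : Set ℝ} {a : ℝ}
    (ha : IsAlgebraic (Algebra.adjoin 𝕜 s) a) : IsAlgebraic (Algebra.adjoin 𝕜' s) a := by
  have hle : (Algebra.adjoin 𝕜 s).toSubring ≤ (Algebra.adjoin 𝕜' s).toSubring := by
    intro x (hx : x ∈ Algebra.adjoin 𝕜 s)
    change x ∈ Algebra.adjoin 𝕜' s
    induction hx using Algebra.adjoin_induction with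
    | mem x hx => exact Algebra.subset_adjoin hx
    | algebraMap r => exact (Algebra.adjoin 𝕜' s).algebraMap_mem ⟨r, h r.2⟩
    | add x y hx hy h1 h2 => exact add_mem h1 h2
    | mul x y hx hy h1 h2 => exact mul_mem h1 h2
  exact ha.ringHom_of_comp_eq (S := Algebra.adjoin 𝕜' s) (Subring.inclusion hle) (RingHom.id ℝ)
    (Subring.inclusion_injective hle) rfl

theorem td_le_card (𝕜 : Subfield ℝ) (q : σ → ℝ) : td 𝕜 q ≤ Fintype.card σ := by
  have h1 := (AlgebraicIndependent.matroid 𝕜 ℝ).eRk_le_encard (range q)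
  rw [← tda_eRk, ← image_univ] at h1
  have h2 := h1.trans (encard_image_le q univ)
  rw [encard_univ, ENat.card_eq_coe_fintype_card] at h2
  exact_mod_cast h2

/-- `td` is the size of any maximal algebraically independent set of coordinates; one can prescribe an independent
subset and a spanning superset -/
theorem exists_basis (𝕜 : Subfield ℝ) (q : σ → ℝ) {S T : Set σ} (hST : S ⊆ T)
    (hS : AlgebraicIndependent 𝕜 fun i : S => q i)
    (hT : ∀ j, IsAlgebraic (Algebra.adjoin 𝕜 (q '' T)) (q j)) :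
    ∃ B : Finset σ, S ⊆ B ∧ (B : Set σ) ⊆ T ∧ B.card = td 𝕜 q ∧ AlgebraicIndependent 𝕜 (fun i : B => q i) ∧
      ∀ j, IsAlgebraic (Algebra.adjoin 𝕜 (q '' B)) (q j) := by
  have hinj : InjOn q S := fun a ha b hb hab =>
    congrArg Subtype.val (hS.injective (a₁ := ⟨a, ha⟩) (a₂ := ⟨b, hb⟩) hab)
  have h1 : (AlgebraicIndependent.matroid 𝕜 ℝ).Indep (q '' S) := (algebraicIndependent_image hinj).1 hS
  obtain ⟨I, hI, hSI⟩ := h1.subset_isBasis_of_subset (image_mono hST)
  obtain ⟨u, hSu, huT, hu, hqu⟩ := hinj.exists_subset_injOn_subset_range_eq (s := T ∩ q ⁻¹' I)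
    (fun a ha => ⟨hST ha, hSI ⟨a, ha, rfl⟩⟩)
  rw [image_inter_preimage, inter_eq_right.2 hI.subset] at hu
  have hcl : range q ⊆ (AlgebraicIndependent.matroid 𝕜 ℝ).closure I := by
    rintro _ ⟨j, rfl⟩
    rw [hI.closure_eq_closure, tda_mem_closure]
    exact hT j
  have hI' : (AlgebraicIndependent.matroid 𝕜 ℝ).IsBasis I (range q) :=
    hI.indep.isBasis_of_subset_of_subset_closure (hI.subset.trans (image_subset_range _ _)) hcl
  obtain ⟨B, rfl⟩ := (toFinite u).exists_finset_coe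
  refine ⟨B, hSu, huT.trans inter_subset_left, ?_, ?_, fun j => ?_⟩
  · have h2 := tda_eRk 𝕜 q
    rw [← hI'.encard_eq_eRk, ← hu, hqu.encard_image, encard_coe_eq_coe_finsetCard] at h2
    exact_mod_cast h2.symm
  · refine (algebraicIndependent_image hqu).2 ?_
    rw [hu]
    exact hI.indep
  · rw [hu, ← tda_mem_closure]
    exact hcl ⟨j, rfl⟩

theorem card_le_td {q : σ → ℝ} {S : Finset σ} (hS : AlgebraicIndependent 𝕜 fun i : S => q i) : S.card ≤ td 𝕜 q := by
  have hinj : InjOn q S := fun a ha b hb hab =>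
    congrArg Subtype.val (hS.injective (a₁ := ⟨a, ha⟩) (a₂ := ⟨b, hb⟩) hab)
  have h1 : (AlgebraicIndependent.matroid 𝕜 ℝ).Indep (q '' S) := (algebraicIndependent_image hinj).1 hS
  have h2 := (AlgebraicIndependent.matroid 𝕜 ℝ).eRk_mono (image_subset_range q S)
  rw [h1.eRk_eq_encard, ← tda_eRk, hinj.encard_image, encard_coe_eq_coe_finsetCard] at h2
  exact_mod_cast h2

theorem td_le_of_alg {q : σ → ℝ} {q' : τ → ℝ} (h : ∀ j, IsAlgebraic (Algebra.adjoin 𝕜 (range q')) (q j)) :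
    td 𝕜 q ≤ td 𝕜 q' := by
  have h1 : range q ⊆ (AlgebraicIndependent.matroid 𝕜 ℝ).closure (range q') := by
    rintro _ ⟨j, rfl⟩
    exact tda_mem_closure.2 (h j)
  have h2 := (AlgebraicIndependent.matroid 𝕜 ℝ).eRk_mono h1
  rw [Matroid.eRk_closure_eq, ← tda_eRk, ← tda_eRk] at h2
  exact_mod_cast h2

/-- conversely, if a sub-tuple has the same `td`, everything is algebraic over it -/
theorem alg_of_td_le {q : σ → ℝ} (e : τ → σ) (h : td 𝕜 q ≤ td 𝕜 (q ∘ e)) (j : σ) :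
    IsAlgebraic (Algebra.adjoin 𝕜 (range (q ∘ e))) (q j) := by
  have h1 := ((AlgebraicIndependent.matroid 𝕜 ℝ).isRkFinite_of_finite
    (finite_range (q ∘ e))).closure_eq_closure_of_subset_of_eRk_ge_eRk (range_comp_subset_range e q)
    (by rw [← tda_eRk, ← tda_eRk]; exact_mod_cast h)
  rw [← tda_mem_closure, h1]
  exact (AlgebraicIndependent.matroid 𝕜 ℝ).subset_closure (range q) (subset_univ _) ⟨j, rfl⟩

theorem td_comp_le (q : σ → ℝ) (e : τ → σ) : td 𝕜 (q ∘ e) ≤ td 𝕜 q := by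
  have h2 := (AlgebraicIndependent.matroid 𝕜 ℝ).eRk_mono (range_comp_subset_range e q)
  rw [← tda_eRk, ← tda_eRk] at h2
  exact_mod_cast h2

theorem td_mono_field {𝕜' : Subfield ℝ} (h : 𝕜 ≤ 𝕜') (q : σ → ℝ) : td 𝕜' q ≤ td 𝕜 q := by
  obtain ⟨I, hI⟩ := (AlgebraicIndependent.matroid 𝕜 ℝ).exists_isBasis (range q)
  have h1 : range q ⊆ (AlgebraicIndependent.matroid 𝕜' ℝ).closure I := fun a ha =>
    tda_mem_closure.2 (tda_alg_mono h (tda_mem_closure.1 (hI.subset_closure ha)))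
  have h2 := (AlgebraicIndependent.matroid 𝕜' ℝ).eRk_mono h1
  rw [Matroid.eRk_closure_eq, ← tda_eRk] at h2
  have h3 := h2.trans (Matroid.eRk_le_encard _ _)
  rw [hI.encard_eq_eRk, ← tda_eRk] at h3
  exact_mod_cast h3

/-- the subfield generated by `𝕜` and the coordinates of `q` -/
noncomputable def adj (𝕜 : Subfield ℝ) (q : σ → ℝ) : Subfield ℝ := Subfield.closure (𝕜 ∪ range q)

theorem le_adj (𝕜 : Subfield ℝ) (q : σ → ℝ) : 𝕜 ≤ adj 𝕜 q :=
  fun _ hx => Subfield.subset_closure (Or.inl hx)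

theorem mem_adj (𝕜 : Subfield ℝ) (q : σ → ℝ) (i : σ) : q i ∈ adj 𝕜 q :=
  Subfield.subset_closure (Or.inr ⟨i, rfl⟩)

theorem countable_closure {s : Set ℝ} (hs : s.Countable) : Countable (Subfield.closure s) :=
  Cardinal.mk_le_aleph0_iff.1 ((Subfield.cardinalMk_closure_le_max s).trans
    (max_le (Cardinal.le_aleph0_iff_set_countable.2 hs) le_rfl))

theorem countable_adj [Countable 𝕜] (q : σ → ℝ) : Countable (adj 𝕜 q) :=
  countable_closure ((Set.countable_coe_iff.1 ‹Countable 𝕜›).union (countable_range q))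

theorem countable_sup {𝕜' : Subfield ℝ} [Countable 𝕜] [Countable 𝕜'] : Countable (𝕜 ⊔ 𝕜' : Subfield ℝ) := by
  rw [← Subfield.closure_eq 𝕜, ← Subfield.closure_eq 𝕜', ← Subfield.closure_union]
  exact countable_closure
    ((Set.countable_coe_iff.1 ‹Countable 𝕜›).union (Set.countable_coe_iff.1 ‹Countable 𝕜'›))

/-- tower formula (`trdeg_add_eq`) -/
theorem td_tower (𝕜 : Subfield ℝ) (q : σ → ℝ) (q' : τ → ℝ) :
    td 𝕜 (Sum.elim q q') = td 𝕜 q + td (adj 𝕜 q) q' := by
  have h1 : adj 𝕜 q = (IntermediateField.adjoin 𝕜 (range q)).toSubfield := by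
    rw [IntermediateField.adjoin_toSubfield, adj]
    congr 2
    exact Subtype.range_coe.symm
  have h2 := tda_lt (IntermediateField.adjoin 𝕜 (range q)).toSubfield (finite_range q')
  have h3 := trdeg_add_eq 𝕜 (IntermediateField.adjoin 𝕜 (range q))
    (A := IntermediateField.adjoin (IntermediateField.adjoin 𝕜 (range q)) (range q'))
  rw [h1, td, td, td, Sum.elim_range, ← IntermediateField.adjoin_adjoin_left,
    ← Cardinal.toNat_add (tda_lt 𝕜 (finite_range q)) h2]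
  exact congrArg Cardinal.toNat h3.symm

theorem tdb_basis (𝕜 : Subfield ℝ) (q : σ → ℝ) {S : Set σ} (hS : AlgebraicIndependent 𝕜 fun i : S => q i) :
    ∃ B : Finset σ, S ⊆ B ∧ B.card = td 𝕜 q ∧ AlgebraicIndependent 𝕜 (fun i : B => q i) ∧
      ∀ j, IsAlgebraic (Algebra.adjoin 𝕜 (q '' B)) (q j) := by
  obtain ⟨B, h1, -, h2⟩ := exists_basis 𝕜 q (subset_univ S) hS fun j =>
    isAlgebraic_algebraMap (⟨q j, Algebra.subset_adjoin ⟨j, trivial, rfl⟩⟩ : Algebra.adjoin 𝕜 (q '' univ))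
  exact ⟨B, h1, h2⟩

theorem tdb_spec {q z : σ → ℝ} (h : z ∈ ZS (IS 𝕜 {q})) {f : MvPolynomial σ 𝕜} (hf : aeval q f = 0) :
    aeval z f = 0 := h f fun _ hq => hq ▸ hf

theorem tdb_indep {q z : σ → ℝ} (h : z ∈ ZS (IS 𝕜 {q})) {B : Finset σ}
    (hB : AlgebraicIndependent 𝕜 fun i : B => z i) : AlgebraicIndependent 𝕜 fun i : B => q i :=
  algebraicIndependent_iff.2 fun g hg => algebraicIndependent_iff.1 hB g (by
    have := tdb_spec h (f := rename Subtype.val g) (by rw [aeval_rename]; exact hg)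
    rwa [aeval_rename] at this)

/-- specialisation does not raise `td` -/
theorem td_le_of_spec {q z : σ → ℝ} (h : z ∈ ZS (IS 𝕜 {q})) : td 𝕜 z ≤ td 𝕜 q := by
  obtain ⟨B, -, h1, h2, -⟩ := tdb_basis 𝕜 z (S := ∅) algebraicIndependent_empty_type
  exact h1 ▸ card_le_td (tdb_indep h h2)

/-- proper specialisation lowers `td` -/
theorem td_lt_of_spec {q z : σ → ℝ} (h : z ∈ ZS (IS 𝕜 {q})) {f : MvPolynomial σ 𝕜} (hq : aeval q f ≠ 0)
    (hz : aeval z f = 0) : td 𝕜 z + 1 ≤ td 𝕜 q := by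
  obtain ⟨B, -, h1, h2, -⟩ := tdb_basis 𝕜 z (S := ∅) algebraicIndependent_empty_type
  by_contra hlt
  obtain ⟨B', h3, h4, -, h5⟩ := tdb_basis 𝕜 q (S := B) (tdb_indep h h2)
  obtain rfl : B = B' := Finset.eq_of_subset_of_card_le h3 (by omega)
  have h6 : ∀ g : MvPolynomial σ 𝕜, IsAlgebraic (Algebra.adjoin 𝕜 (q '' B)) (aeval q g) := fun g => by
    induction g using MvPolynomial.induction_on with
    | C a => rw [aeval_C]; exact isAlgebraic_algebraMap (algebraMap 𝕜 (Algebra.adjoin 𝕜 (q '' B)) a)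
    | add g g' h h' => rw [map_add]; exact h.add h'
    | mul_X g i h => rw [map_mul, aeval_X]; exact h.mul (h5 i)
  obtain ⟨P, P0, P1⟩ := (h6 f).exists_nonzero_coeff_and_aeval_eq_zero (mem_nonZeroDivisors_of_ne_zero hq)
  have h7 : ∀ c : Algebra.adjoin 𝕜 (q '' B), ∃ g : MvPolynomial B 𝕜, aeval (fun i : B => q i) g = c :=
    fun ⟨c, hc⟩ => by
      rwa [image_eq_range, Algebra.adjoin_range_eq_range_aeval] at hc
  choose g hg using fun i => h7 (P.coeff i)
  have h8 := tdb_spec h (f := ∑ i ∈ Finset.range (P.natDegree + 1), rename Subtype.val (g i) * f ^ i) (by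
    rw [Polynomial.aeval_eq_sum_range] at P1
    simp only [map_sum, map_mul, map_pow, aeval_rename]
    exact (Finset.sum_congr rfl fun i _ => congrArg (· * _) (hg i)).trans P1)
  simp only [map_add, map_sum, map_mul, aeval_rename, hz, Finset.sum_range_succ', pow_succ, mul_zero,
    Finset.sum_const_zero, pow_zero, mul_one, zero_add] at h8
  refine P0 (Subtype.ext ?_)
  rw [← hg 0, algebraicIndependent_iff.1 h2 _ h8, map_zero]
  rfl

theorem tdb_full {q : σ → ℝ} (h : Fintype.card σ ≤ td 𝕜 q) : AlgebraicIndependent 𝕜 q := by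
  obtain ⟨B, -, h1, h2, -⟩ := tdb_basis 𝕜 q (S := ∅) algebraicIndependent_empty_type
  obtain rfl : B = Finset.univ := Finset.eq_univ_of_card B (le_antisymm (Finset.card_le_univ B) (h1 ▸ h))
  exact h2.comp (fun i => ⟨i, Finset.mem_univ i⟩) fun _ _ h => congrArg Subtype.val h

theorem td_lt_card {q : σ → ℝ} {f : MvPolynomial σ 𝕜} (hf : f ≠ 0) (h : aeval q f = 0) :
    td 𝕜 q + 1 ≤ Fintype.card σ := by
  by_contra hlt
  exact hf (algebraicIndependent_iff.1 (tdb_full (by omega)) f h)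

theorem aeval_ne_of_td {q : σ → ℝ} (h : Fintype.card σ ≤ td 𝕜 q) {f : MvPolynomial σ 𝕜} (hf : f ≠ 0) :
    aeval q f ≠ 0 :=
  fun h0 => hf (algebraicIndependent_iff.1 (tdb_full h) f h0)

/-- Baire or measure: algebraically independent points are dense -/
theorem dense_indep [Countable 𝕜] : Dense {q : σ → ℝ | AlgebraicIndependent 𝕜 q} := by
  have hc : Countable (MvPolynomial σ 𝕜) :=
    Cardinal.mk_le_aleph0_iff.1 (MvPolynomial.cardinalMk_le_max_lift.trans (by simp))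
  have e : ∀ (f : MvPolynomial σ 𝕜) (q : σ → ℝ), aeval q f = eval q (map 𝕜.subtype f) := fun f q => by
    rw [aeval_def, eval₂_eq_eval_map]; rfl
  refine (dense_iInter_of_isOpen (f := fun f : {f : MvPolynomial σ 𝕜 // f ≠ 0} => {q | aeval q f.1 ≠ 0})
    (fun f => ?_) fun f => ?_).mono fun q hq => algebraicIndependent_iff.2 fun f hf => ?_
  · simp only [e]
    exact isOpen_ne_fun (MvPolynomial.continuous_eval _) continuous_const
  · refine dense_iff_inter_open.2 fun U hU ⟨x, hx⟩ => ?_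
    by_contra h0
    obtain ⟨u, hu, hsub⟩ := isOpen_pi_iff'.1 hU x hx
    refine f.2 (map_injective 𝕜.subtype 𝕜.subtype_injective ?_)
    refine MvPolynomial.funext_set u (fun i => infinite_of_mem_nhds _ ((hu i).1.mem_nhds (hu i).2))
      fun y hy => ?_
    rw [← e, map_zero, map_zero]
    by_contra h1
    exact h0 ⟨y, hsub hy, h1⟩
  · by_contra h0
    exact mem_iInter.1 hq ⟨f, h0⟩ hf

/-- every real polynomial is defined over a countable subfield -/
theorem exists_descend (𝕜 : Subfield ℝ) [Countable 𝕜] (R : MvPolynomial σ ℝ) :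
    ∃ 𝕜' : Subfield ℝ, 𝕜 ≤ 𝕜' ∧ Countable 𝕜' ∧ ∃ R' : MvPolynomial σ 𝕜', map 𝕜'.subtype R' = R := by
  classical
  have hc : ((𝕜 : Set ℝ) ∪ (R.coeffs : Set ℝ)).Countable :=
    (Set.countable_coe_iff.1 (inferInstance : Countable 𝕜)).union R.coeffs.countable_toSet
  refine ⟨Subfield.closure (𝕜 ∪ (R.coeffs : Set ℝ)), fun x hx => Subfield.subset_closure (Or.inl hx),
    countable_closure hc, ?_⟩
  refine mem_range_map_iff_coeffs_subset.2 fun x hx => ⟨⟨x, Subfield.subset_closure (Or.inr hx)⟩, rfl⟩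

theorem aeval_eq_eval_map (q : σ → ℝ) (f : MvPolynomial σ 𝕜) : aeval q f = eval q (map 𝕜.subtype f) := by
  rw [eval_map, aeval_def]; rfl

theorem IsAlg.mono_field {𝕜' : Subfield ℝ} (h : 𝕜 ≤ 𝕜') {S : Set (σ → ℝ)} (hS : IsAlg 𝕜 S) : IsAlg 𝕜' S := by
  obtain ⟨J, rfl⟩ := hS
  have key : ∀ (q : σ → ℝ) (f : MvPolynomial σ 𝕜), aeval q (map (Subfield.inclusion h) f) = aeval q f := fun q f => by
    rw [aeval_eq_eval_map, aeval_eq_eval_map, MvPolynomial.map_map]; rfl
  refine ⟨map (Subfield.inclusion h) '' J, ?_⟩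
  ext q
  simp only [ZS, mem_ofPred_eq, forall_mem_image, key]

theorem IsAlg.union {S S' : Set (σ → ℝ)} (h : IsAlg 𝕜 S) (h' : IsAlg 𝕜 S') : IsAlg 𝕜 (S ∪ S') := by
  obtain ⟨J, rfl⟩ := h
  obtain ⟨J', rfl⟩ := h'
  refine ⟨image2 (· * ·) J J', ?_⟩
  ext q
  simp only [ZS, mem_union, mem_ofPred_eq, forall_mem_image2, map_mul, mul_eq_zero]
  constructor
  · rintro (h | h) f hf g hg
    exacts [Or.inl (h f hf), Or.inr (h g hg)]
  · intro h
    by_cases h1 : ∀ f ∈ J, aeval q f = 0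
    · exact Or.inl h1
    · push Not at h1
      obtain ⟨f, hf, h1⟩ := h1
      exact Or.inr fun g hg => (h f hf g hg).resolve_left h1

theorem IsAlg.inter {S S' : Set (σ → ℝ)} (h : IsAlg 𝕜 S) (h' : IsAlg 𝕜 S') : IsAlg 𝕜 (S ∩ S') := by
  obtain ⟨J, rfl⟩ := h
  obtain ⟨J', rfl⟩ := h'
  refine ⟨J ∪ J', ?_⟩
  ext q
  simp only [ZS, mem_inter_iff, mem_ofPred_eq, mem_union, or_imp, forall_and]

theorem IsAlg.isClosed {S : Set (σ → ℝ)} (h : IsAlg 𝕜 S) : IsClosed S := by
  obtain ⟨J, rfl⟩ := h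
  have : ZS J = ⋂ f ∈ J, {q : σ → ℝ | aeval q f = 0} := by ext q; simp [ZS]
  rw [this]
  refine isClosed_biInter fun f _ => isClosed_eq ?_ continuous_const
  simp only [aeval_eq_eval_map]
  exact continuous_eval _

theorem IsAlg.exists_poly {S : Set (σ → ℝ)} (h : IsAlg 𝕜 S) {q : σ → ℝ} (hq : q ∉ S) :
    ∃ f : MvPolynomial σ 𝕜, aeval q f ≠ 0 ∧ ∀ z ∈ S, aeval z f = 0 := by
  obtain ⟨J, rfl⟩ := h
  simp only [ZS, mem_ofPred_eq, not_forall] at hq
  obtain ⟨f, hf, h⟩ := hq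
  exact ⟨f, h, fun z hz => hz f hf⟩

theorem analytic_aeval (f : MvPolynomial σ 𝕜) : AnalyticOnNhd ℝ (fun q : σ → ℝ => aeval q f) univ := by
  simp only [aeval_eq_eval_map]
  exact AnalyticOnNhd.eval_mvPolynomial _

theorem fderiv_aeval [DecidableEq σ] (f : MvPolynomial σ 𝕜) (q v : σ → ℝ) :
    fderiv ℝ (fun q : σ → ℝ => aeval q f) q v = ∑ i, aeval q (pderiv i f) * v i := by
  have key : HasFDerivAt (fun q : σ → ℝ => aeval q f)
      (∑ i, aeval q (pderiv i f) • (ContinuousLinearMap.proj i : (σ → ℝ) →L[ℝ] ℝ)) q := by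
    induction f using MvPolynomial.induction_on with
    | C a => simpa using hasFDerivAt_const _ _
    | add f g hf hg =>
      simp only [map_add, add_smul, Finset.sum_add_distrib]
      exact hf.add hg
    | mul_X f j hf =>
      simp only [map_mul, aeval_X]
      refine (hf.mul (hasFDerivAt_apply j q)).congr_fderiv ?_
      ext v
      simp [pderiv_X, Pi.single_apply, Finset.sum_add_distrib, add_mul, Finset.mul_sum, apply_ite, mul_assoc]
  rw [key.fderiv]
  simp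

end Crest.Agent.R264
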